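import Mathlib

/-!
# The Balog-Szemerédi-Gowers graph lemma (paths of length three).

No group is used: a dense bipartite graph has large `A' ⊆ A`, `B' ⊆ B` such that any
`a' ∈ A'`, `b' ∈ B'` are joined by many paths `a' - b₁ - a₁ - b'`, and the graph restricted to
`A' × B'` is still dense.
-/

open Finset

namespace Crest.Agent.Lib.NearBaer

lemma card_filter_real {γ : Type*} (s : Finset γ) (p : γ → Prop) [DecidablePred p] :
    ((s.filter p).card : ℝ) = ∑ x ∈ s, if p x then (1 : ℝ) else 0 := by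
  rw [card_filter]; push_cast; rfl

section

variable {α β : Type*} [DecidableEq α] [DecidableEq β]

theorem bsg_paths (A : Finset α) (B : Finset β) (R : α → β → Prop)
    [∀ a b, Decidable (R a b)] {K : ℝ} (hK : 1 ≤ K) (hA : A.Nonempty) (hB : B.Nonempty)
    (hdense : (A.card : ℝ) * B.card ≤ K * ((A ×ˢ B).filter (fun p => R p.1 p.2)).card) :
    ∃ A' ⊆ A, ∃ B' ⊆ B, (A.card : ℝ) ≤ 6 * K * A'.card ∧ (B.card : ℝ) ≤ 4 * K * B'.card ∧
      (A.card : ℝ) * B.card ≤ 24 * K ^ 2 * ((A' ×ˢ B').filter (fun p => R p.1 p.2)).card ∧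
      ∀ a' ∈ A', ∀ b' ∈ B', (A.card : ℝ) * B.card ≤
        12288 * K ^ 5 * ((B ×ˢ A).filter (fun p => R a' p.1 ∧ R p.2 p.1 ∧ R p.2 b')).card := by
  classical
  have hKpos : 0 < K := by linarith
  have hApos : (0 : ℝ) < A.card := by exact_mod_cast hA.card_pos
  have hBpos : (0 : ℝ) < B.card := by exact_mod_cast hB.card_pos
  set a := (A.card : ℝ) with ha_def
  set b := (B.card : ℝ) with hb_def
  -- degree of `x ∈ A`
  let dg : α → ℝ := fun x => ((B.filter (fun y => R x y)).card : ℝ)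
  have hdg_le : ∀ x, dg x ≤ b := fun x => by
    simp only [dg, hb_def]; exact_mod_cast card_filter_le _ _
  have hdg_nonneg : ∀ x, 0 ≤ dg x := fun x => by simp only [dg]; positivity
  have hedges : ((A ×ˢ B).filter (fun p => R p.1 p.2)).card = ∑ x ∈ A, (B.filter (fun y => R x y)).card := by
    rw [card_filter, sum_product]
    refine sum_congr rfl fun x _ => ?_
    rw [card_filter]
  have hedges' : (((A ×ˢ B).filter (fun p => R p.1 p.2)).card : ℝ) = ∑ x ∈ A, dg x := by
    rw [hedges]; push_cast; rfl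
  -- the high degree vertices
  set A0 := A.filter (fun x => b / (2 * K) ≤ dg x) with hA0
  have hA0sum : a * b / (2 * K) ≤ ∑ x ∈ A0, dg x := by
    have hsplit := sum_filter_add_sum_filter_not A (fun x => b / (2 * K) ≤ dg x) dg
    have hlow : ∑ x ∈ A.filter (fun x => ¬ b / (2 * K) ≤ dg x), dg x ≤ a * (b / (2 * K)) := by
      calc _ ≤ ∑ _x ∈ A.filter (fun x => ¬ b / (2 * K) ≤ dg x), b / (2 * K) :=
            sum_le_sum fun x hx => (not_le.mp (mem_filter.mp hx).2).le
        _ = ((A.filter (fun x => ¬ b / (2 * K) ≤ dg x)).card : ℝ) * (b / (2 * K)) := by simp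
        _ ≤ a * (b / (2 * K)) := by
          have : ((A.filter (fun x => ¬ b / (2 * K) ≤ dg x)).card : ℝ) ≤ a := by
            rw [ha_def]; exact_mod_cast card_filter_le _ _
          gcongr
    have h1 : a * b / K ≤ ∑ x ∈ A, dg x := by
      rw [← hedges', div_le_iff₀ hKpos]; linarith
    rw [← hsplit] at h1
    have e : a * b / K = a * b / (2 * K) + a * (b / (2 * K)) := by field_simp; ring
    rw [e] at h1
    linarith
  -- for `y ∈ B`, `A1 y` is the neighbourhood of `y` in `A0`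
  let A1 : β → Finset α := fun y => A0.filter (fun x => R x y)
  have hA1sum : ∑ y ∈ B, ((A1 y).card : ℝ) = ∑ x ∈ A0, dg x := by
    simp only [A1, dg, card_filter_real]
    rw [sum_comm]
  -- the constants
  set lam : ℝ := 32 * K with hlam
  set eps : ℝ := 1 / (256 * K ^ 3) with heps
  have hlamPos : 0 < lam := by positivity
  have hepsPos : 0 < eps := by positivity
  have hlameps : lam * eps = 1 / (8 * K ^ 2) := by
    rw [hlam, heps]; field_simp; norm_num
  let codeg : α → α → ℝ := fun x x' => ((B.filter (fun y => R x y ∧ R x' y)).card : ℝ)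
  let bad : α → α → Prop := fun x x' => codeg x x' < eps * b
  -- bad pairs in a neighbourhood
  let bc : β → ℝ := fun y => ∑ x ∈ A1 y, ∑ x' ∈ A1 y, if bad x x' then (1 : ℝ) else 0
  have hbcsum : ∑ y ∈ B, bc y ≤ a ^ 2 * (eps * b) := by
    have h1 : ∀ y ∈ B, bc y = ∑ x ∈ A0, ∑ x' ∈ A0,
        if (R x y ∧ R x' y) then (if bad x x' then (1 : ℝ) else 0) else 0 := by
      intro y _
      simp only [bc, A1]
      rw [sum_filter]
      refine sum_congr rfl fun x _ => ?_
      by_cases hx : R x y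
      · simp only [hx, if_true, true_and]
        rw [sum_filter]
      · simp [hx]
    rw [sum_congr rfl h1]
    rw [sum_comm]
    have h2 : ∀ x ∈ A0, ∑ y ∈ B, ∑ x' ∈ A0,
        (if (R x y ∧ R x' y) then (if bad x x' then (1 : ℝ) else 0) else 0) ≤ a * (eps * b) := by
      intro x _
      rw [sum_comm]
      have h3 : ∀ x' ∈ A0, ∑ y ∈ B,
          (if (R x y ∧ R x' y) then (if bad x x' then (1 : ℝ) else 0) else 0) ≤ eps * b := by
        intro x' _
        by_cases hb : bad x x'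
        · simp only [hb, if_true]
          rw [← card_filter_real]
          exact hb.le
        · simp only [hb, if_false, ite_self, sum_const_zero]
          positivity
      calc _ ≤ ∑ _x' ∈ A0, eps * b := sum_le_sum h3
        _ = (A0.card : ℝ) * (eps * b) := by simp
        _ ≤ a * (eps * b) := by
          have : (A0.card : ℝ) ≤ a := by rw [ha_def]; exact_mod_cast card_filter_le _ _
          gcongr
    calc _ ≤ ∑ _x ∈ A0, a * (eps * b) := sum_le_sum h2
      _ = (A0.card : ℝ) * (a * (eps * b)) := by simp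
      _ ≤ a * (a * (eps * b)) := by
        have : (A0.card : ℝ) ≤ a := by rw [ha_def]; exact_mod_cast card_filter_le _ _
        gcongr
      _ = _ := by ring
  -- choice of `b₀`
  have hCS : (∑ y ∈ B, ((A1 y).card : ℝ)) ^ 2 ≤ b * ∑ y ∈ B, ((A1 y).card : ℝ) ^ 2 :=
    sq_sum_le_card_mul_sum_sq
  have hmain : ∑ _y ∈ B, a ^ 2 / (8 * K ^ 2) ≤ ∑ y ∈ B, (((A1 y).card : ℝ) ^ 2 - lam * bc y) := by
    rw [sum_sub_distrib, ← mul_sum]
    have h1 : a ^ 2 * b / (4 * K ^ 2) ≤ ∑ y ∈ B, ((A1 y).card : ℝ) ^ 2 := by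
      have h2 : (a * b / (2 * K)) ^ 2 ≤ b * ∑ y ∈ B, ((A1 y).card : ℝ) ^ 2 := by
        refine le_trans ?_ hCS
        rw [hA1sum]
        gcongr
      have e : (a * b / (2 * K)) ^ 2 = b * (a ^ 2 * b / (4 * K ^ 2)) := by field_simp; ring
      rw [e] at h2
      exact le_of_mul_le_mul_left h2 hBpos
    have h3 : lam * ∑ y ∈ B, bc y ≤ a ^ 2 * b / (8 * K ^ 2) := by
      calc _ ≤ lam * (a ^ 2 * (eps * b)) := by gcongr
        _ = (lam * eps) * (a ^ 2 * b) := by ring
        _ = _ := by rw [hlameps]; field_simp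
    have e : ∑ _y ∈ B, a ^ 2 / (8 * K ^ 2) = a ^ 2 * b / (8 * K ^ 2) := by
      simp only [sum_const, nsmul_eq_mul]
      rw [← hb_def]; field_simp
    rw [e]
    have e2 : a ^ 2 * b / (4 * K ^ 2) = 2 * (a ^ 2 * b / (8 * K ^ 2)) := by field_simp; ring
    rw [e2] at h1
    linarith
  obtain ⟨y0, hy0, hy0main⟩ := exists_le_of_sum_le hB hmain
  set A2 := A1 y0 with hA2
  set n1 := (A2.card : ℝ) with hn1
  have hn1nonneg : 0 ≤ n1 := by positivity
  have hbc0 : 0 ≤ bc y0 := by
    apply sum_nonneg; intro x _; apply sum_nonneg; intro x' _; split_ifs <;> norm_num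
  have hAn1 : a ≤ 3 * K * n1 := by
    have h1 : a ^ 2 / (8 * K ^ 2) ≤ n1 ^ 2 := by
      have : 0 ≤ lam * bc y0 := by positivity
      linarith
    have h2 : a ^ 2 ≤ (3 * K * n1) ^ 2 := by
      rw [div_le_iff₀ (by positivity)] at h1
      nlinarith [sq_nonneg (K * n1)]
    exact (sq_le_sq₀ hApos.le (by positivity)).mp h2
  have hn1pos : 0 < n1 := by
    by_contra h
    have : n1 = 0 := le_antisymm (not_lt.mp h) hn1nonneg
    rw [this] at hAn1
    simp at hAn1
    linarith
  have hbcbound : bc y0 ≤ n1 ^ 2 / lam := by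
    rw [le_div_iff₀ hlamPos]
    have : 0 ≤ a ^ 2 / (8 * K ^ 2) := by positivity
    linarith
  -- vertices with few bad partners
  let pb : α → ℝ := fun x => ∑ x' ∈ A2, if bad x x' then (1 : ℝ) else 0
  have hpb_nonneg : ∀ x, 0 ≤ pb x := fun x => by
    apply sum_nonneg; intro x' _; split_ifs <;> norm_num
  set A' := A2.filter (fun x => pb x ≤ n1 / (16 * K)) with hA'
  have hA'sub2 : A' ⊆ A2 := filter_subset _ _
  have hA2sub0 : A2 ⊆ A0 := filter_subset _ _
  have hA0sub : A0 ⊆ A := filter_subset _ _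
  have hA'card : n1 / 2 ≤ (A'.card : ℝ) := by
    have hsplit := card_filter_add_card_filter_not (s := A2)
      (fun x => pb x ≤ n1 / (16 * K))
    have hsplit' : (A'.card : ℝ) + ((A2.filter (fun x => ¬ pb x ≤ n1 / (16 * K))).card : ℝ) = n1 := by
      rw [hn1, hA']; exact_mod_cast hsplit
    have h1 : ((A2.filter (fun x => ¬ pb x ≤ n1 / (16 * K))).card : ℝ) * (n1 / (16 * K))
        ≤ bc y0 := by
      calc _ = ∑ _x ∈ A2.filter (fun x => ¬ pb x ≤ n1 / (16 * K)), n1 / (16 * K) := by simp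
        _ ≤ ∑ x ∈ A2.filter (fun x => ¬ pb x ≤ n1 / (16 * K)), pb x :=
          sum_le_sum fun x hx => (not_le.mp (mem_filter.mp hx).2).le
        _ ≤ ∑ x ∈ A2, pb x := sum_le_sum_of_subset_of_nonneg (filter_subset _ _)
          fun x _ _ => hpb_nonneg x
        _ = bc y0 := rfl
    have h2 : ((A2.filter (fun x => ¬ pb x ≤ n1 / (16 * K))).card : ℝ) ≤ n1 / 2 := by
      have h3 : ((A2.filter (fun x => ¬ pb x ≤ n1 / (16 * K))).card : ℝ) * (n1 / (16 * K))
          ≤ (n1 / 2) * (n1 / (16 * K)) := by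
        refine h1.trans (hbcbound.trans (le_of_eq ?_))
        rw [hlam]; field_simp; norm_num
      exact le_of_mul_le_mul_right h3 (by positivity)
    linarith
  set B' := B.filter (fun y => n1 / (8 * K) ≤ ((A2.filter (fun x => R x y)).card : ℝ)) with hB'
  have hB'sub : B' ⊆ B := filter_subset _ _
  -- for subsets of `A2` the edges into `B \ B'` are few
  have hlowedges : ∀ S ⊆ A2, ∑ x ∈ S, ((B.filter (fun y => y ∉ B' ∧ R x y)).card : ℝ)
      ≤ b * (n1 / (8 * K)) := by
    intro S hS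
    simp only [card_filter_real]
    rw [sum_comm]
    calc _ ≤ ∑ _y ∈ B, n1 / (8 * K) := ?_
      _ = _ := by simp [hb_def]
    refine sum_le_sum fun y hy => ?_
    by_cases hyB : y ∈ B'
    · simp only [hyB, not_true_eq_false, false_and, if_false, sum_const_zero]
      positivity
    · simp only [hyB, not_false_eq_true, true_and]
      have h1 : ¬ n1 / (8 * K) ≤ ((A2.filter (fun x => R x y)).card : ℝ) := fun h =>
        hyB (mem_filter.mpr ⟨hy, h⟩)
      rw [← card_filter_real]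
      refine le_trans ?_ (not_le.mp h1).le
      exact_mod_cast card_le_card (filter_subset_filter _ hS)
  -- lower bound on degrees in `A2`
  have hdgA2 : ∀ x ∈ A2, b / (2 * K) ≤ dg x := fun x hx =>
    (mem_filter.mp (hA2sub0 hx)).2
  -- edges from a subset `S ⊆ A2` into `B'`
  have hedgesB' : ∀ S ⊆ A2, (S.card : ℝ) * (b / (2 * K)) - b * (n1 / (8 * K))
      ≤ ∑ x ∈ S, ((B'.filter (fun y => R x y)).card : ℝ) := by
    intro S hS
    have h1 : ∀ x ∈ S, dg x = ((B'.filter (fun y => R x y)).card : ℝ)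
        + ((B.filter (fun y => y ∉ B' ∧ R x y)).card : ℝ) := by
      intro x _
      simp only [dg, card_filter_real, hB', sum_filter]
      rw [← sum_add_distrib]
      refine sum_congr rfl fun y hy => ?_
      have hy' : y ∈ B' ↔ n1 / (8 * K) ≤ ((A2.filter (fun x => R x y)).card : ℝ) := by
        simp [hB', hy]
      by_cases hc : n1 / (8 * K) ≤ ((A2.filter (fun x => R x y)).card : ℝ)
      · by_cases hr : R x y
        · simp [hc, hr, hy'.mpr hc, hy]
        · simp [hc, hr]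
      · have : y ∉ B' := fun h => hc (hy'.mp h)
        by_cases hr : R x y
        · simp [hc, hr, this]
        · simp [hc, hr]
    have h2 : (S.card : ℝ) * (b / (2 * K)) ≤ ∑ x ∈ S, dg x := by
      calc _ = ∑ _x ∈ S, b / (2 * K) := by simp
        _ ≤ _ := sum_le_sum fun x hx => hdgA2 x (hS hx)
    rw [sum_congr rfl h1, sum_add_distrib] at h2
    have h3 := hlowedges S hS
    linarith
  have hBcard : b ≤ 4 * K * B'.card := by
    have h1 := hedgesB' A2 subset_rfl
    have h2 : ∑ x ∈ A2, ((B'.filter (fun y => R x y)).card : ℝ) ≤ n1 * B'.card := by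
      calc _ ≤ ∑ _x ∈ A2, (B'.card : ℝ) :=
            sum_le_sum fun x _ => by exact_mod_cast card_filter_le _ _
        _ = _ := by simp [hn1]
    have h3 : n1 * (b / (4 * K)) ≤ n1 * B'.card := by
      refine le_trans ?_ (h1.trans h2)
      rw [← hn1]
      have e : n1 * (b / (2 * K)) - b * (n1 / (8 * K)) = n1 * (b / (4 * K)) + b * (n1 / (8 * K)) := by
        field_simp; ring
      rw [e]
      have : 0 ≤ b * (n1 / (8 * K)) := by positivity
      linarith
    have h4 := le_of_mul_le_mul_left h3 hn1pos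
    rw [div_le_iff₀ (by positivity)] at h4
    linarith
  refine ⟨A', hA'sub2.trans (hA2sub0.trans hA0sub), B', hB'sub, ?_, hBcard, ?_, ?_⟩
  · -- `|A| ≤ 6 K |A'|`
    nlinarith
  · -- dense restriction
    have h1 := hedgesB' A' hA'sub2
    have h2 : ((A' ×ˢ B').filter (fun p => R p.1 p.2)).card
        = ∑ x ∈ A', (B'.filter (fun y => R x y)).card := by
      rw [card_filter, sum_product]
      refine sum_congr rfl fun x _ => ?_
      rw [card_filter]
    have h2' : (((A' ×ˢ B').filter (fun p => R p.1 p.2)).card : ℝ)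
        = ∑ x ∈ A', ((B'.filter (fun y => R x y)).card : ℝ) := by
      rw [h2]; push_cast; rfl
    rw [h2']
    have h3 : n1 * b / (8 * K) ≤ ∑ x ∈ A', ((B'.filter (fun y => R x y)).card : ℝ) := by
      refine le_trans ?_ h1
      have h4 : (n1 / 2) * (b / (2 * K)) ≤ (A'.card : ℝ) * (b / (2 * K)) := by gcongr
      have e : n1 * b / (8 * K) = (n1 / 2) * (b / (2 * K)) - b * (n1 / (8 * K)) := by
        field_simp; ring
      rw [e]
      linarith
    have h5 : a * b ≤ 24 * K ^ 2 * (n1 * b / (8 * K)) := by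
      have e : 24 * K ^ 2 * (n1 * b / (8 * K)) = (3 * K * n1) * b := by field_simp; ring
      rw [e]
      gcongr
    refine h5.trans ?_
    gcongr
  · -- paths
    intro a' ha' b' hb'
    obtain ⟨-, ha'p⟩ := mem_filter.mp ha'
    obtain ⟨-, hb'p⟩ := mem_filter.mp hb'
    set U := A2.filter (fun x => R x b') with hU
    set Good := U.filter (fun x => ¬ bad a' x) with hGood
    have hGoodcard : n1 / (16 * K) ≤ (Good.card : ℝ) := by
      have h1 : (U.card : ℝ) ≤ Good.card + pb a' := by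
        have hsplit := card_filter_add_card_filter_not (s := U) (fun x => ¬ bad a' x)
        have h2 : ((U.filter (fun x => ¬ ¬ bad a' x)).card : ℝ) ≤ pb a' := by
          simp only [pb, not_not]
          rw [← card_filter_real]
          exact_mod_cast card_le_card (filter_subset_filter _ (filter_subset _ _))
        have h3 : (Good.card : ℝ) + ((U.filter (fun x => ¬ ¬ bad a' x)).card : ℝ) = U.card := by
          exact_mod_cast hsplit
        linarith
      have h4 : n1 / (8 * K) ≤ (U.card : ℝ) := hb'p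
      have e : n1 / (8 * K) = n1 / (16 * K) + n1 / (16 * K) := by field_simp; ring
      linarith
    -- count paths
    have hpaths : ∑ x ∈ Good, codeg a' x
        ≤ ((B ×ˢ A).filter (fun p => R a' p.1 ∧ R p.2 p.1 ∧ R p.2 b')).card := by
      have hGsub : Good ⊆ A := fun x hx => by
        have h1 : x ∈ U := (mem_filter.mp hx).1
        have h2 : x ∈ A2 := (mem_filter.mp h1).1
        exact hA0sub (hA2sub0 h2)
      have h1 : ((Good.biUnion (fun x =>
          (B.filter (fun y => R a' y ∧ R x y)).image (fun y => (y, x)))).card : ℝ)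
          = ∑ x ∈ Good, codeg a' x := by
        rw [card_biUnion]
        · push_cast
          refine sum_congr rfl fun x _ => ?_
          rw [card_image_of_injective]
          intro y y' h
          exact (Prod.ext_iff.mp h).1
        · intro x _ x' _ hne
          refine disjoint_left.mpr ?_
          intro p hp hp'
          obtain ⟨y, _, rfl⟩ := mem_image.mp hp
          obtain ⟨y', _, hy'⟩ := mem_image.mp hp'
          exact hne (Prod.ext_iff.mp hy').2.symm
      rw [← h1]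
      refine Nat.cast_le.mpr (card_le_card ?_)
      intro p hp
      obtain ⟨x, hx, hp'⟩ := mem_biUnion.mp hp
      obtain ⟨y, hy, rfl⟩ := mem_image.mp hp'
      obtain ⟨hyB, hy1, hy2⟩ : y ∈ B ∧ R a' y ∧ R x y := by
        have := mem_filter.mp hy; exact ⟨this.1, this.2.1, this.2.2⟩
      have hxU : x ∈ U := (mem_filter.mp hx).1
      exact mem_filter.mpr ⟨mem_product.mpr ⟨hyB, hGsub hx⟩, hy1, hy2, (mem_filter.mp hxU).2⟩
    have hsumG : (Good.card : ℝ) * (eps * b) ≤ ∑ x ∈ Good, codeg a' x := by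
      calc _ = ∑ _x ∈ Good, eps * b := by simp
        _ ≤ _ := sum_le_sum fun x hx => not_lt.mp (mem_filter.mp hx).2
    have h5 : (n1 / (16 * K)) * (eps * b)
        ≤ ((B ×ˢ A).filter (fun p => R a' p.1 ∧ R p.2 p.1 ∧ R p.2 b')).card :=
      le_trans (by gcongr) (hsumG.trans hpaths)
    have h6 : a * b ≤ 12288 * K ^ 5 * ((n1 / (16 * K)) * (eps * b)) := by
      have e : 12288 * K ^ 5 * ((n1 / (16 * K)) * (eps * b)) = (3 * K * n1) * b := by
        rw [heps]; field_simp; norm_num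
      rw [e]
      gcongr
    refine h6.trans ?_
    gcongr

/-- Counting lemma: if along any path the value `s a' b'` is determined by the three edge labels
and the path by the labels, then `|s(A' × B')| · P ≤ |C|³`. -/
theorem image_card_mul_paths_le {γ δ : Type*} [DecidableEq γ] [DecidableEq δ]
    (A : Finset α) (B : Finset β) (R : α → β → Prop) [∀ a b, Decidable (R a b)]
    (c : α → β → γ) (C : Finset γ) (hc : ∀ a ∈ A, ∀ b ∈ B, R a b → c a b ∈ C)
    (s : α → β → δ) (Ψ : γ → γ → γ → δ) (A' : Finset α) (B' : Finset β)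
    (hA' : A' ⊆ A) (hB' : B' ⊆ B)
    (hΨ : ∀ a' ∈ A', ∀ b' ∈ B', ∀ b1 ∈ B, ∀ a1 ∈ A, R a' b1 → R a1 b1 → R a1 b' →
      s a' b' = Ψ (c a' b1) (c a1 b1) (c a1 b'))
    (hinj : ∀ a' ∈ A', ∀ b' ∈ B', ∀ b1 ∈ B, ∀ a1 ∈ A, ∀ b2 ∈ B, ∀ a2 ∈ A,
      R a' b1 → R a1 b1 → R a1 b' → R a' b2 → R a2 b2 → R a2 b' →
      c a' b1 = c a' b2 → c a1 b' = c a2 b' → b1 = b2 ∧ a1 = a2)
    {P : ℝ} (hP : ∀ a' ∈ A', ∀ b' ∈ B', P ≤
        ((B ×ˢ A).filter (fun p => R a' p.1 ∧ R p.2 p.1 ∧ R p.2 b')).card) :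
    (((A' ×ˢ B').image (fun p => s p.1 p.2)).card : ℝ) * P ≤ (C.card : ℝ) ^ 3 := by
  classical
  set Im := (A' ×ˢ B').image (fun p => s p.1 p.2) with hIm
  have hrep : ∀ r ∈ Im, ∃ a' ∈ A', ∃ b' ∈ B', s a' b' = r := by
    intro r hr
    obtain ⟨p, hp, rfl⟩ := mem_image.mp hr
    exact ⟨p.1, (mem_product.mp hp).1, p.2, (mem_product.mp hp).2, rfl⟩
  by_cases hImne : Im.Nonempty
  swap
  · rw [not_nonempty_iff_eq_empty.mp hImne]; simp
  obtain ⟨r0, hr0⟩ := hImne
  obtain ⟨a00, _, b00, _, _⟩ := hrep r0 hr0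
  haveI : Nonempty α := ⟨a00⟩
  haveI : Nonempty β := ⟨b00⟩
  choose! pa hpa pb hpb hsr using hrep
  -- triples attached to `r`
  let Tr : δ → Finset (γ × γ × γ) := fun r =>
    ((B ×ˢ A).filter (fun p => R (pa r) p.1 ∧ R p.2 p.1 ∧ R p.2 (pb r))).image
      (fun p => (c (pa r) p.1, c p.2 p.1, c p.2 (pb r)))
  have hTrcard : ∀ r ∈ Im, P ≤ ((Tr r).card : ℝ) := by
    intro r hr
    refine (hP _ (hpa r hr) _ (hpb r hr)).trans ?_
    simp only [Tr]
    rw [card_image_of_injOn]
    intro p hp p' hp' h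
    obtain ⟨hp1, hp2, hp3, hp4⟩ : p ∈ B ×ˢ A ∧ R (pa r) p.1 ∧ R p.2 p.1 ∧ R p.2 (pb r) := by
      have := mem_filter.mp (mem_coe.mp hp); exact ⟨this.1, this.2.1, this.2.2.1, this.2.2.2⟩
    obtain ⟨hp1', hp2', hp3', hp4'⟩ : p' ∈ B ×ˢ A ∧ R (pa r) p'.1 ∧ R p'.2 p'.1 ∧ R p'.2 (pb r) := by
      have := mem_filter.mp (mem_coe.mp hp'); exact ⟨this.1, this.2.1, this.2.2.1, this.2.2.2⟩
    have h' : (c (pa r) p.1, c p.2 p.1, c p.2 (pb r)) = (c (pa r) p'.1, c p'.2 p'.1, c p'.2 (pb r)) := h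
    obtain ⟨e1, e2, e3⟩ : c (pa r) p.1 = c (pa r) p'.1 ∧ c p.2 p.1 = c p'.2 p'.1 ∧
        c p.2 (pb r) = c p'.2 (pb r) := by
      simpa [Prod.ext_iff] using h'
    have := hinj _ (hpa r hr) _ (hpb r hr) _ (mem_product.mp hp1).1 _ (mem_product.mp hp1).2
      _ (mem_product.mp hp1').1 _ (mem_product.mp hp1').2 hp2 hp3 hp4 hp2' hp3' hp4' e1 e3
    exact Prod.ext this.1 this.2
  have hTrsub : ∀ r ∈ Im, Tr r ⊆ C ×ˢ C ×ˢ C := by
    intro r hr t ht
    obtain ⟨p, hp, rfl⟩ := mem_image.mp ht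
    obtain ⟨hp1, hp2, hp3, hp4⟩ : p ∈ B ×ˢ A ∧ R (pa r) p.1 ∧ R p.2 p.1 ∧ R p.2 (pb r) := by
      have := mem_filter.mp hp; exact ⟨this.1, this.2.1, this.2.2.1, this.2.2.2⟩
    have hb1 := (mem_product.mp hp1).1
    have ha1 := (mem_product.mp hp1).2
    exact mem_product.mpr ⟨hc _ (hA' (hpa r hr)) _ hb1 hp2, mem_product.mpr
      ⟨hc _ ha1 _ hb1 hp3, hc _ ha1 _ (hB' (hpb r hr)) hp4⟩⟩
  have hTrdisj : ∀ r ∈ Im, ∀ r' ∈ Im, r ≠ r' → Disjoint (Tr r) (Tr r') := by
    intro r hr r' hr' hne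
    rw [disjoint_left]
    intro t ht ht'
    obtain ⟨p, hp, rfl⟩ := mem_image.mp ht
    obtain ⟨p', hp', he⟩ := mem_image.mp ht'
    obtain ⟨hp1, hp2, hp3, hp4⟩ : p ∈ B ×ˢ A ∧ R (pa r) p.1 ∧ R p.2 p.1 ∧ R p.2 (pb r) := by
      have := mem_filter.mp hp; exact ⟨this.1, this.2.1, this.2.2.1, this.2.2.2⟩
    obtain ⟨hp1', hp2', hp3', hp4'⟩ : p' ∈ B ×ˢ A ∧ R (pa r') p'.1 ∧ R p'.2 p'.1 ∧ R p'.2 (pb r') := by
      have := mem_filter.mp hp'; exact ⟨this.1, this.2.1, this.2.2.1, this.2.2.2⟩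
    have e1 := hΨ _ (hpa r hr) _ (hpb r hr) _ (mem_product.mp hp1).1 _ (mem_product.mp hp1).2
      hp2 hp3 hp4
    have e2 := hΨ _ (hpa r' hr') _ (hpb r' hr') _ (mem_product.mp hp1').1 _ (mem_product.mp hp1').2
      hp2' hp3' hp4'
    rw [hsr r hr] at e1
    rw [hsr r' hr'] at e2
    apply hne
    rw [e1, e2]
    have he' : (c (pa r') p'.1, c p'.2 p'.1, c p'.2 (pb r')) = (c (pa r) p.1, c p.2 p.1, c p.2 (pb r)) := he
    obtain ⟨e3, e4, e5⟩ : c (pa r') p'.1 = c (pa r) p.1 ∧ c p'.2 p'.1 = c p.2 p.1 ∧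
        c p'.2 (pb r') = c p.2 (pb r) := by
      simpa [Prod.ext_iff] using he'
    rw [e3, e4, e5]
  have hU : ((Im.biUnion Tr).card : ℝ) = ∑ r ∈ Im, ((Tr r).card : ℝ) := by
    rw [card_biUnion hTrdisj]; push_cast; rfl
  have hle : ((Im.biUnion Tr).card : ℝ) ≤ (C.card : ℝ) ^ 3 := by
    have h1 : Im.biUnion Tr ⊆ C ×ˢ C ×ˢ C := biUnion_subset.mpr hTrsub
    have h2 := card_le_card h1
    rw [card_product, card_product] at h2
    have h3 : ((Im.biUnion Tr).card : ℝ) ≤ ((C.card * (C.card * C.card) : ℕ) : ℝ) := by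
      exact_mod_cast h2
    refine h3.trans (le_of_eq ?_)
    push_cast; ring
  calc (Im.card : ℝ) * P = ∑ _r ∈ Im, P := by simp
    _ ≤ ∑ r ∈ Im, ((Tr r).card : ℝ) := sum_le_sum hTrcard
    _ = _ := hU.symm
    _ ≤ _ := hle

end

end Crest.Agent.Lib.NearBaer
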