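import Crest.Agent.Lib.NearBaer.GeomComb

/-!
Row 34, Theorem IT, geometric reduction (steps (G1)-(G5) of finding #1761): a rich set of lines yields
the additive/multiplicative grid `GridData`.
-/

set_option autoImplicit false

noncomputable section

open Finset

namespace Crest.Agent.Lib.NearBaer

/-- The data produced by the geometric reduction. -/
structure GridData {F : Type} [Field F] [DecidableEq F] (N Kg : ℝ) (A B C Λ : Finset F)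
    (G : Finset (F × F)) (a0 b0 : F) : Prop where
  cardA : (A.card : ℝ) ≤ N
  cardB : (B.card : ℝ) ≤ N
  cardC : (C.card : ℝ) ≤ N
  cardΛ : (Λ.card : ℝ) ≤ N
  sub : G ⊆ A ×ˢ B
  a0A : a0 ∉ A
  b0B : b0 ∉ B
  sum : ∀ p ∈ G, p.1 + p.2 ∈ C
  ratio : ∀ p ∈ G, (p.2 - b0) / (p.1 - a0) ∈ Λ
  many : N ^ 2 ≤ Kg * G.card

namespace GeomAux

variable {F : Type} [Field F] [DecidableEq F]

/-- Incidence in the slope-intercept model. -/
def Inc (p l : F × F) : Prop := p.2 = l.1 * p.1 + l.2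

instance (p l : F × F) : Decidable (Inc p l) := by unfold Inc; infer_instance

lemma uniq : GeomComb.Uniq (Inc (F := F)) := by
  intro p p' l l' hne h1 h2 h3 h4
  unfold Inc at h1 h2 h3 h4
  have hx : p.1 ≠ p'.1 := by
    intro hx
    apply hne
    refine Prod.ext hx ?_
    rw [h1, h2, hx]
  have hx' : p.1 - p'.1 ≠ 0 := sub_ne_zero.2 hx
  have hm : l.1 = l'.1 := by
    have : (l.1 - l'.1) * (p.1 - p'.1) = 0 := by linear_combination h3 - h4 - h1 + h2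
    exact sub_eq_zero.1 ((mul_eq_zero.1 this).resolve_right hx')
  have hc : l.2 = l'.2 := by
    have e : l.1 * p.1 + l.2 = l'.1 * p.1 + l'.2 := by rw [← h1, ← h3]
    rw [hm] at e
    exact add_left_cancel e
  exact Prod.ext hm hc

/-- The value of `φ` on a line through `τ`. -/
lemma phi_on_line {m0 c0 τ x y m c : F} (ht : m0 * τ + c0 = m * τ + c) (hz : y = m * x + c)
    (hh : y - m0 * x - c0 ≠ 0) : (x - τ) / (y - m0 * x - c0) = 1 / (m - m0) := by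
  have e : y - m0 * x - c0 = (m - m0) * (x - τ) := by rw [hz]; linear_combination -ht
  rw [e] at hh ⊢
  have h1 : m - m0 ≠ 0 := left_ne_zero_of_mul hh
  have h2 : x - τ ≠ 0 := right_ne_zero_of_mul hh
  field_simp

/-- Difference of `φ` along a line. -/
lemma phi_diff {m0 c0 τ x y x0 y0 m c : F} (hz : y = m * x + c) (hz0 : y0 = m * x0 + c)
    (hh : y - m0 * x - c0 ≠ 0) (hh0 : y0 - m0 * x0 - c0 ≠ 0) :
    (x - τ) / (y - m0 * x - c0) - (x0 - τ) / (y0 - m0 * x0 - c0) =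
      (x - x0) * ((c - c0) + τ * (m - m0)) / ((y - m0 * x - c0) * (y0 - m0 * x0 - c0)) := by
  rw [div_sub_div _ _ hh hh0]
  congr 1
  rw [hz, hz0]
  ring

/-- The height above `l₀`. -/
def hh (l₀ z : F × F) : F := z.2 - l₀.1 * z.1 - l₀.2

/-- The coordinate `φ_τ`. -/
def phi (l₀ : F × F) (τ : F) (z : F × F) : F := (z.1 - τ) / hh l₀ z

lemma hh_ne_zero {l₀ z : F × F} (hz : ¬ Inc z l₀) : hh l₀ z ≠ 0 := by
  intro h
  apply hz
  unfold hh at h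
  unfold Inc
  linear_combination h

lemma phi_eq {l₀ t l z : F × F} (ht : Inc t l₀) (hl : Inc t l) (hz : Inc z l) (h0 : ¬ Inc z l₀) :
    phi l₀ t.1 z = 1 / (l.1 - l₀.1) := by
  unfold Inc at ht hl hz
  exact phi_on_line (by rw [← ht, ← hl]) hz (hh_ne_zero h0)

lemma phi_affine {l₀ z : F × F} {τ₁ τ₂ τ₃ α β : F} (h1 : α + β = 1)
    (h2 : α * τ₁ + β * τ₂ = τ₃) :
    α * phi l₀ τ₁ z + β * phi l₀ τ₂ z = phi l₀ τ₃ z := by
  unfold phi
  have : z.1 - τ₃ = α * (z.1 - τ₁) + β * (z.1 - τ₂) := by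
    linear_combination (-z.1) * h1 + h2
  rw [this]
  ring

lemma phi_inj {l₀ z z' : F × F} {τ₁ τ₂ : F} (h12 : τ₁ ≠ τ₂) (h : ¬ Inc z l₀) (h' : ¬ Inc z' l₀)
    (e1 : phi l₀ τ₁ z = phi l₀ τ₁ z') (e2 : phi l₀ τ₂ z = phi l₀ τ₂ z') : z = z' := by
  have hn := hh_ne_zero h
  have hn' := hh_ne_zero h'
  unfold phi at e1 e2
  rw [div_eq_div_iff hn hn'] at e1 e2
  have hτ : τ₂ - τ₁ ≠ 0 := sub_ne_zero.2 h12.symm
  have e3 : hh l₀ z' = hh l₀ z := by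
    have : (τ₂ - τ₁) * hh l₀ z' = (τ₂ - τ₁) * hh l₀ z := by linear_combination e1 - e2
    exact mul_left_cancel₀ hτ this
  rw [e3] at e1
  have e4 : z.1 = z'.1 := by
    have := mul_right_cancel₀ hn e1
    linear_combination this
  unfold hh at e3
  refine Prod.ext e4 ?_
  rw [e4] at e3
  linear_combination -e3

lemma phi_sub {l₀ l z z₀ : F × F} (τ : F) (hz : Inc z l) (hz₀ : Inc z₀ l) (h : ¬ Inc z l₀)
    (h₀ : ¬ Inc z₀ l₀) :
    phi l₀ τ z - phi l₀ τ z₀ =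
      (z.1 - z₀.1) * ((l.2 - l₀.2) + τ * (l.1 - l₀.1)) / (hh l₀ z * hh l₀ z₀) := by
  unfold Inc at hz hz₀
  exact phi_diff hz hz₀ (hh_ne_zero h) (hh_ne_zero h₀)

/-- The explicit ratio on a line. -/
def ratioL (l₀ : F × F) (α β τ₁ τ₂ : F) (l : F × F) : F :=
  (β * ((l.2 - l₀.2) + τ₂ * (l.1 - l₀.1))) / (α * ((l.2 - l₀.2) + τ₁ * (l.1 - l₀.1)))

lemma ratio_eq {l₀ l z z₀ : F × F} {α β τ₁ τ₂ : F} (hz : Inc z l) (hz₀ : Inc z₀ l) (h : ¬ Inc z l₀)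
    (h₀ : ¬ Inc z₀ l₀) (hne : α * phi l₀ τ₁ z ≠ α * phi l₀ τ₁ z₀) :
    (β * phi l₀ τ₂ z - β * phi l₀ τ₂ z₀) / (α * phi l₀ τ₁ z - α * phi l₀ τ₁ z₀) =
      ratioL l₀ α β τ₁ τ₂ l := by
  have hn := hh_ne_zero h
  have hn₀ := hh_ne_zero h₀
  have e1 : α * phi l₀ τ₁ z - α * phi l₀ τ₁ z₀ =
      α * ((z.1 - z₀.1) * ((l.2 - l₀.2) + τ₁ * (l.1 - l₀.1)) / (hh l₀ z * hh l₀ z₀)) := by
    rw [← mul_sub, phi_sub τ₁ hz hz₀ h h₀]
  have e2 : β * phi l₀ τ₂ z - β * phi l₀ τ₂ z₀ =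
      β * ((z.1 - z₀.1) * ((l.2 - l₀.2) + τ₂ * (l.1 - l₀.1)) / (hh l₀ z * hh l₀ z₀)) := by
    rw [← mul_sub, phi_sub τ₂ hz hz₀ h h₀]
  have hne' : α * ((z.1 - z₀.1) * ((l.2 - l₀.2) + τ₁ * (l.1 - l₀.1)) / (hh l₀ z * hh l₀ z₀)) ≠ 0 := by
    rw [← e1]; exact sub_ne_zero.2 hne
  have hα : α ≠ 0 := left_ne_zero_of_mul hne'
  have h3 := right_ne_zero_of_mul hne'
  have h4 : (z.1 - z₀.1) * ((l.2 - l₀.2) + τ₁ * (l.1 - l₀.1)) ≠ 0 := by
    intro h0; apply h3; rw [h0, zero_div]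
  have hx : z.1 - z₀.1 ≠ 0 := left_ne_zero_of_mul h4
  have hγ : (l.2 - l₀.2) + τ₁ * (l.1 - l₀.1) ≠ 0 := right_ne_zero_of_mul h4
  rw [e1, e2]
  unfold ratioL
  field_simp

/-- From the combinatorial core to the grid. -/
theorem grid_of_core (L : Finset (F × F)) (D₀ : ℝ) (l₀ t₁ t₂ t₃ z₀ : F × F) (S₁ : Finset (F × F))
    (ht1 : Inc t₁ l₀) (ht2 : Inc t₂ l₀) (ht3 : Inc t₃ l₀) (h12 : t₁ ≠ t₂) (h13 : t₁ ≠ t₃)
    (h23 : t₂ ≠ t₃)
    (hd1 : (#(L.filter (Inc t₁)) : ℝ) ≤ D₀) (hd2 : (#(L.filter (Inc t₂)) : ℝ) ≤ D₀)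
    (hd3 : (#(L.filter (Inc t₃)) : ℝ) ≤ D₀) (hd0 : (#(L.filter (Inc z₀)) : ℝ) ≤ D₀)
    (hz0 : ¬ Inc z₀ l₀)
    (hS : ∀ z ∈ S₁, ¬ Inc z l₀ ∧ (∃ l ∈ L, Inc t₁ l ∧ Inc z l) ∧ (∃ l ∈ L, Inc t₂ l ∧ Inc z l) ∧
        (∃ l ∈ L, Inc t₃ l ∧ Inc z l) ∧ (∃ l ∈ L, Inc z l ∧ Inc z₀ l)) :
    ∃ (A B C Λ : Finset F) (G : Finset (F × F)) (a0 b0 : F),
      (#A : ℝ) ≤ D₀ ∧ (#B : ℝ) ≤ D₀ ∧ (#C : ℝ) ≤ D₀ ∧ (#Λ : ℝ) ≤ D₀ ∧ G ⊆ A ×ˢ B ∧ a0 ∉ A ∧ b0 ∉ B ∧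
      (∀ p ∈ G, p.1 + p.2 ∈ C) ∧ (∀ p ∈ G, (p.2 - b0) / (p.1 - a0) ∈ Λ) ∧
      (#S₁ : ℝ) - 2 * D₀ ≤ #G := by
  classical
  -- the parameters
  have hτ : ∀ {t t' : F × F}, Inc t l₀ → Inc t' l₀ → t ≠ t' → t.1 ≠ t'.1 := by
    intro t t' h h' hne he
    apply hne
    refine Prod.ext he ?_
    unfold Inc at h h'
    rw [h, h', he]
  have h12' := hτ ht1 ht2 h12
  have h13' := hτ ht1 ht3 h13
  have h23' := hτ ht2 ht3 h23
  obtain ⟨τ₁, hτ₁⟩ : ∃ τ, τ = t₁.1 := ⟨_, rfl⟩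
  obtain ⟨τ₂, hτ₂⟩ : ∃ τ, τ = t₂.1 := ⟨_, rfl⟩
  obtain ⟨τ₃, hτ₃⟩ : ∃ τ, τ = t₃.1 := ⟨_, rfl⟩
  rw [← hτ₁, ← hτ₂] at h12'
  rw [← hτ₁, ← hτ₃] at h13'
  rw [← hτ₂, ← hτ₃] at h23'
  have hδ : τ₁ - τ₂ ≠ 0 := sub_ne_zero.2 h12'
  obtain ⟨α, hα⟩ : ∃ α, α = (τ₃ - τ₂) / (τ₁ - τ₂) := ⟨_, rfl⟩
  obtain ⟨β, hβ⟩ : ∃ β, β = (τ₁ - τ₃) / (τ₁ - τ₂) := ⟨_, rfl⟩
  have hα0 : α ≠ 0 := by rw [hα]; exact div_ne_zero (sub_ne_zero.2 h23'.symm) hδ
  have hβ0 : β ≠ 0 := by rw [hβ]; exact div_ne_zero (sub_ne_zero.2 h13') hδ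
  have hαβ : α + β = 1 := by rw [hα, hβ]; field_simp; ring
  have hαβτ : α * τ₁ + β * τ₂ = τ₃ := by rw [hα, hβ]; field_simp; ring
  obtain ⟨a, ha⟩ : ∃ a : F × F → F, ∀ z, a z = α * phi l₀ τ₁ z := ⟨_, fun _ => rfl⟩
  obtain ⟨b, hb⟩ : ∃ b : F × F → F, ∀ z, b z = β * phi l₀ τ₂ z := ⟨_, fun _ => rfl⟩
  have hinj : ∀ {z z' : F × F}, ¬ Inc z l₀ → ¬ Inc z' l₀ → a z = a z' → b z = b z' → z = z' := by
    intro z z' h h' e1 e2
    rw [ha, ha] at e1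
    rw [hb, hb] at e2
    exact phi_inj h12' h h' (mul_left_cancel₀ hα0 e1) (mul_left_cancel₀ hβ0 e2)
  -- the sets
  let C1 := (L.filter (Inc t₁)).image (fun l => 1 / (l.1 - l₀.1))
  let C2 := (L.filter (Inc t₂)).image (fun l => 1 / (l.1 - l₀.1))
  let C3 := (L.filter (Inc t₃)).image (fun l => 1 / (l.1 - l₀.1))
  let A0 := C1.image (fun u => α * u)
  let B0 := C2.image (fun u => β * u)
  have hA0c : (#A0 : ℝ) ≤ D₀ := le_trans (by exact_mod_cast card_image_le.trans card_image_le) hd1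
  have hB0c : (#B0 : ℝ) ≤ D₀ := le_trans (by exact_mod_cast card_image_le.trans card_image_le) hd2
  have hC3c : (#C3 : ℝ) ≤ D₀ := le_trans (by exact_mod_cast card_image_le) hd3
  have hD₀ : 0 ≤ D₀ := le_trans (Nat.cast_nonneg _) hd0
  have haA : ∀ z ∈ S₁, a z ∈ A0 := by
    intro z hz
    obtain ⟨h0, ⟨l, hl, h1, h2⟩, _⟩ := hS z hz
    have e := phi_eq ht1 h1 h2 h0
    rw [← hτ₁] at e
    rw [ha, e]
    exact mem_image_of_mem _ (mem_image_of_mem _ (mem_filter.2 ⟨hl, h1⟩))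
  have hbB : ∀ z ∈ S₁, b z ∈ B0 := by
    intro z hz
    obtain ⟨h0, _, ⟨l, hl, h1, h2⟩, _⟩ := hS z hz
    have e := phi_eq ht2 h1 h2 h0
    rw [← hτ₂] at e
    rw [hb, e]
    exact mem_image_of_mem _ (mem_image_of_mem _ (mem_filter.2 ⟨hl, h1⟩))
  have habC : ∀ z ∈ S₁, a z + b z ∈ C3 := by
    intro z hz
    obtain ⟨h0, _, _, ⟨l, hl, h1, h2⟩, _⟩ := hS z hz
    have e := phi_eq ht3 h1 h2 h0
    rw [← hτ₃] at e
    rw [ha, hb, phi_affine hαβ hαβτ, e]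
    exact mem_image_of_mem _ (mem_filter.2 ⟨hl, h1⟩)
  let Sg := S₁.filter (fun z => a z ≠ a z₀ ∧ b z ≠ b z₀)
  refine ⟨A0.erase (a z₀), B0.erase (b z₀), C3, (L.filter (Inc z₀)).image (ratioL l₀ α β τ₁ τ₂),
    Sg.image (fun z => (a z, b z)), a z₀, b z₀, ?_, ?_, hC3c, ?_, ?_, ?_, ?_, ?_, ?_, ?_⟩
  · exact le_trans (by exact_mod_cast card_le_card (erase_subset _ _)) hA0c
  · exact le_trans (by exact_mod_cast card_le_card (erase_subset _ _)) hB0c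
  · exact le_trans (by exact_mod_cast card_image_le) hd0
  · intro p hp
    obtain ⟨z, hz, rfl⟩ := mem_image.1 hp
    obtain ⟨hz1, hz2, hz3⟩ := mem_filter.1 hz
    exact mem_product.2 ⟨mem_erase.2 ⟨hz2, haA z hz1⟩, mem_erase.2 ⟨hz3, hbB z hz1⟩⟩
  · exact fun h => (mem_erase.1 h).1 rfl
  · exact fun h => (mem_erase.1 h).1 rfl
  · intro p hp
    obtain ⟨z, hz, rfl⟩ := mem_image.1 hp
    exact habC z (mem_filter.1 hz).1
  · intro p hp
    obtain ⟨z, hz, rfl⟩ := mem_image.1 hp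
    obtain ⟨hz1, hz2, hz3⟩ := mem_filter.1 hz
    obtain ⟨h0, _, _, _, l, hl, h1, h2⟩ := hS z hz1
    rw [ha, ha] at hz2
    simp only
    rw [ha, ha, hb, hb, ratio_eq h1 h2 h0 hz0 hz2]
    exact mem_image_of_mem _ (mem_filter.2 ⟨hl, h2⟩)
  · -- counting
    have hinjG : Set.InjOn (fun z => (a z, b z)) (Sg : Set (F × F)) := by
      intro z hz z' hz' he
      have hz1 := (mem_filter.1 (mem_coe.1 hz)).1
      have hz1' := (mem_filter.1 (mem_coe.1 hz')).1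
      simp only [Prod.mk.injEq] at he
      exact hinj (hS z hz1).1 (hS z' hz1').1 he.1 he.2
    rw [card_image_of_injOn hinjG]
    have hF1 : #(S₁.filter fun z => a z = a z₀) ≤ #B0 := by
      refine card_le_card_of_injOn b (fun z hz => hbB z (mem_filter.1 hz).1) ?_
      intro z hz z' hz' he
      have hz1 := mem_filter.1 (mem_coe.1 hz)
      have hz1' := mem_filter.1 (mem_coe.1 hz')
      exact hinj (hS z hz1.1).1 (hS z' hz1'.1).1 (hz1.2.trans hz1'.2.symm) he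
    have hF2 : #(S₁.filter fun z => b z = b z₀) ≤ #A0 := by
      refine card_le_card_of_injOn a (fun z hz => haA z (mem_filter.1 hz).1) ?_
      intro z hz z' hz' he
      have hz1 := mem_filter.1 (mem_coe.1 hz)
      have hz1' := mem_filter.1 (mem_coe.1 hz')
      exact hinj (hS z hz1.1).1 (hS z' hz1'.1).1 he (hz1.2.trans hz1'.2.symm)
    have hsub : S₁ ⊆ Sg ∪ ((S₁.filter fun z => a z = a z₀) ∪ (S₁.filter fun z => b z = b z₀)) := by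
      intro z hz
      by_cases h1 : a z = a z₀
      · exact mem_union_right _ (mem_union_left _ (mem_filter.2 ⟨hz, h1⟩))
      by_cases h2 : b z = b z₀
      · exact mem_union_right _ (mem_union_right _ (mem_filter.2 ⟨hz, h2⟩))
      exact mem_union_left _ (mem_filter.2 ⟨hz, h1, h2⟩)
    have hcard : #S₁ ≤ #Sg + (#(S₁.filter fun z => a z = a z₀) + #(S₁.filter fun z => b z = b z₀)) :=
      (card_le_card hsub).trans ((card_union_le _ _).trans (Nat.add_le_add_left (card_union_le _ _) _))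
    have hcard' : #S₁ ≤ #Sg + (#B0 + #A0) := by omega
    have hcard'' : (#S₁ : ℝ) ≤ #Sg + (#B0 + #A0) := by exact_mod_cast hcard'
    linarith

set_option maxHeartbeats 1000000 in
/-- All the real-number bookkeeping. -/
lemma num_core (K s q X n r : ℝ) (hK : 1 ≤ K) (hs2 : s ^ 2 = q) (hs : 2 ^ 45 * K ^ 12 < s)
    (hXs : s ≤ K * X) (hX2 : X ^ 2 ≤ 4 * q) (hqn : q ^ 2 ≤ K * n * X ^ 2)
    (hnup : n * (X ^ 2 - X) ≤ q ^ 2) (hn0 : 0 ≤ n) (hr1 : r ≤ s / (8 * K)) (hr2 : s / (8 * K) < r + 1) :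
    4 * n ≤ (3 * K * s) ^ 2 ∧ r * q + r * n + 2 * n < n * X ∧ 3 ≤ r ∧
    3 * q / r < ((r - 1) ^ 2) ^ 3 / q ^ 2 ∧
    (3 * K * s) ^ 2 ≤ 2 ^ 45 * K ^ 12 * ((((r - 1) ^ 2) ^ 3 / q ^ 2 - 3 * q / r) * r ^ 2 / n - 3 * K * s
      - 2 * (3 * K * s)) := by
  have hK0 : 0 < K := by linarith
  have hK12 : 1 ≤ K ^ 12 := one_le_pow₀ hK
  have hs0 : 0 < s := lt_trans (by positivity) hs
  obtain ⟨u, hu⟩ : ∃ u, u = s / K := ⟨_, rfl⟩
  have hsu : s = K * u := by rw [hu]; field_simp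
  have hu0 : 0 < u := by rw [hu]; positivity
  subst hsu
  have hK11 : 1 ≤ K ^ 11 := one_le_pow₀ hK
  have hK4 : 1 ≤ K ^ 4 := one_le_pow₀ hK
  have hu1 : 2 ^ 45 * K ^ 11 < u := by
    have : K * (2 ^ 45 * K ^ 11) < K * u := by
      calc K * (2 ^ 45 * K ^ 11) = 2 ^ 45 * K ^ 12 := by ring
        _ < K * u := hs
    exact lt_of_mul_lt_mul_left this hK0.le
  have hu2 : (2 : ℝ) ^ 45 ≤ u := by nlinarith
  have hq : q = K ^ 2 * u ^ 2 := by rw [← hs2]; ring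
  have hq0 : 0 < q := by rw [hq]; positivity
  -- `X`
  have hXu : u ≤ X := by
    have : K * u ≤ K * X := hXs
    exact le_of_mul_le_mul_left this hK0
  have hX0 : 0 < X := lt_of_lt_of_le hu0 hXu
  have hX8 : 8 ≤ X := by
    have : (8 : ℝ) ≤ 2 ^ 45 := by norm_num
    linarith
  have hXup : X ≤ 2 * (K * u) := by
    have h1 : X ^ 2 ≤ (2 * (K * u)) ^ 2 := by rw [hq] at hX2; nlinarith
    exact (pow_le_pow_iff_left₀ hX0.le (by positivity) (by norm_num)).1 h1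
  -- `n`
  have hn1 : n ≤ 2 * K ^ 4 * u ^ 2 := by
    have h1 : X ^ 2 / 2 ≤ X ^ 2 - X := by nlinarith
    have h2 : n * (X ^ 2 / 2) ≤ q ^ 2 := le_trans (mul_le_mul_of_nonneg_left h1 hn0) hnup
    have h3 : u ^ 2 ≤ X ^ 2 := pow_le_pow_left₀ hu0.le hXu 2
    have h4 : n * (u ^ 2 / 2) ≤ q ^ 2 :=
      le_trans (mul_le_mul_of_nonneg_left (by linarith) hn0) h2
    rw [hq] at h4
    have h5 : (n - 2 * K ^ 4 * u ^ 2) * u ^ 2 ≤ 0 := by nlinarith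
    have hu2' : 0 < u ^ 2 := by positivity
    have h6 : n - 2 * K ^ 4 * u ^ 2 ≤ 0 := by
      by_contra hc
      rw [not_le] at hc
      exact absurd h5 (not_le.2 (mul_pos hc hu2'))
    linarith
  have hnpos : 0 < n := by
    rcases hn0.lt_or_eq with h | h
    · exact h
    · rw [← h] at hqn
      have : 0 < q ^ 2 := by positivity
      simp only [mul_zero, zero_mul] at hqn
      linarith
  have hnX0 : 0 < n * X := by positivity
  -- `r`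
  have hr1' : r ≤ u / 8 := by
    have : K * u / (8 * K) = u / 8 := by field_simp
    rwa [this] at hr1
  have hr2' : u / 8 < r + 1 := by
    have : K * u / (8 * K) = u / 8 := by field_simp
    rwa [this] at hr2
  have hr3 : u / 16 ≤ r := by
    have : (2 : ℝ) ^ 45 ≥ 16 := by norm_num
    linarith
  have hr4 : u / 32 ≤ r - 1 := by
    have : (2 : ℝ) ^ 45 ≥ 32 := by norm_num
    linarith
  have hr5 : 3 ≤ r := by
    have : (2 : ℝ) ^ 45 ≥ 48 := by norm_num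
    linarith
  have hr0 : 0 < r := by linarith
  -- the first inequality
  have h4n : 4 * n ≤ (3 * (K * K * u)) ^ 2 := by nlinarith [sq_nonneg (K ^ 2 * u)]
  refine ⟨?_, ?_, hr5, ?_⟩
  · have e : (3 * K * (K * u)) ^ 2 = 9 * K ^ 4 * u ^ 2 := by ring
    rw [e]; nlinarith [sq_nonneg (K ^ 2 * u)]
  · -- `q s ≤ 2 K n X`
    have h1 : q * (K * u) ≤ 2 * K * (n * X) := by
      have h2 : q * (K * u) * (K * u) ≤ 2 * K * (n * X) * (K * u) := by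
        have e : q * (K * u) * (K * u) = q ^ 2 := by rw [hq]; ring
        rw [e]
        calc q ^ 2 ≤ K * n * X ^ 2 := hqn
          _ = K * n * X * X := by ring
          _ ≤ K * n * X * (2 * (K * u)) := by gcongr
          _ = _ := by ring
      exact le_of_mul_le_mul_right h2 (by positivity)
    have h3 : r * q ≤ (n * X) / 4 := by
      have h4 : r * q ≤ u / 8 * q := by gcongr
      have h5 : u / 8 * q = (q * (K * u)) / (8 * K) := by field_simp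
      have h6 : (q * (K * u)) / (8 * K) ≤ (2 * K * (n * X)) / (8 * K) := by gcongr
      have h7 : (2 * K * (n * X)) / (8 * K) = (n * X) / 4 := by field_simp; ring
      linarith
    have h4 : r * n ≤ (n * X) / 8 := by
      have : r ≤ X / 8 := by linarith
      calc r * n ≤ X / 8 * n := by gcongr
        _ = _ := by ring
    have h5 : 2 * n ≤ (n * X) / 4 := by nlinarith
    linarith
  · -- the cube
    have hq2 : q ^ 2 = K ^ 4 * u ^ 4 := by rw [hq]; ring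
    have hW : u ^ 2 / (2 ^ 30 * K ^ 4) ≤ ((r - 1) ^ 2) ^ 3 / q ^ 2 := by
      have h1 : (u / 32) ^ 2 ≤ (r - 1) ^ 2 := pow_le_pow_left₀ (by positivity) hr4 2
      have h2 : ((u / 32) ^ 2) ^ 3 ≤ ((r - 1) ^ 2) ^ 3 := pow_le_pow_left₀ (by positivity) h1 3
      rw [hq2, div_le_div_iff₀ (by positivity) (by positivity)]
      have h3 : u ^ 2 * (K ^ 4 * u ^ 4) = ((u / 32) ^ 2) ^ 3 * (2 ^ 30 * K ^ 4) := by
        ring
      rw [h3]
      gcongr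
    have h3q : 3 * q / r ≤ 48 * K ^ 2 * u := by
      rw [div_le_iff₀ hr0, hq]
      have : 48 * K ^ 2 * u * (u / 16) ≤ 48 * K ^ 2 * u * r := by gcongr
      nlinarith
    have hgap : 48 * K ^ 2 * u ≤ u ^ 2 / (2 ^ 31 * K ^ 4) := by
      rw [le_div_iff₀ (by positivity)]
      have h1 : 48 * 2 ^ 31 * K ^ 6 ≤ u := by
        have h611 : K ^ 6 ≤ K ^ 11 := pow_le_pow_right₀ hK (by norm_num)
        have h48 : (48 : ℝ) * 2 ^ 31 ≤ 2 ^ 45 := by norm_num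
        calc 48 * 2 ^ 31 * K ^ 6 ≤ 2 ^ 45 * K ^ 11 :=
              mul_le_mul h48 h611 (by positivity) (by positivity)
          _ ≤ u := hu1.le
      calc 48 * K ^ 2 * u * (2 ^ 31 * K ^ 4) = (48 * 2 ^ 31 * K ^ 6) * u := by ring
        _ ≤ u * u := by gcongr
        _ = u ^ 2 := by ring
    have hfrac : u ^ 2 / (2 ^ 30 * K ^ 4) = 2 * (u ^ 2 / (2 ^ 31 * K ^ 4)) := by
      ring
    have hpos : 0 < u ^ 2 / (2 ^ 31 * K ^ 4) := by positivity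
    have hc1 : u ^ 2 / (2 ^ 31 * K ^ 4) ≤ ((r - 1) ^ 2) ^ 3 / q ^ 2 - 3 * q / r := by linarith
    refine ⟨by linarith, ?_⟩
    -- the final count
    have hc2 : 1 / (2 ^ 9 * K ^ 4) ≤ r ^ 2 / n := by
      rw [div_le_div_iff₀ (by positivity) hnpos]
      have h1 : (u / 16) ^ 2 ≤ r ^ 2 := pow_le_pow_left₀ (by positivity) hr3 2
      calc 1 * n ≤ 2 * K ^ 4 * u ^ 2 := by linarith
        _ = (u / 16) ^ 2 * (2 ^ 9 * K ^ 4) := by ring
        _ ≤ r ^ 2 * (2 ^ 9 * K ^ 4) := mul_le_mul_of_nonneg_right h1 (by positivity)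
    have hc3 : u ^ 2 / (2 ^ 40 * K ^ 8) ≤ (((r - 1) ^ 2) ^ 3 / q ^ 2 - 3 * q / r) * r ^ 2 / n := by
      have e : (((r - 1) ^ 2) ^ 3 / q ^ 2 - 3 * q / r) * r ^ 2 / n =
          (((r - 1) ^ 2) ^ 3 / q ^ 2 - 3 * q / r) * (r ^ 2 / n) := by ring
      rw [e]
      calc u ^ 2 / (2 ^ 40 * K ^ 8) = (u ^ 2 / (2 ^ 31 * K ^ 4)) * (1 / (2 ^ 9 * K ^ 4)) := by
            ring
        _ ≤ _ := mul_le_mul hc1 hc2 (by positivity) (le_trans hpos.le hc1)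
    have e1 : (3 * K * (K * u)) ^ 2 = 9 * K ^ 4 * u ^ 2 := by ring
    rw [e1]
    have hmul : 32 * K ^ 4 * u ^ 2 ≤ 2 ^ 45 * K ^ 12 *
        ((((r - 1) ^ 2) ^ 3 / q ^ 2 - 3 * q / r) * r ^ 2 / n) := by
      have hK8 : K ^ 12 * (K ^ 8)⁻¹ = K ^ 4 := by field_simp
      have e : 32 * K ^ 4 * u ^ 2 = 2 ^ 45 * K ^ 12 * (u ^ 2 / (2 ^ 40 * K ^ 8)) := by
        have e' : 2 ^ 45 * K ^ 12 * (u ^ 2 / (2 ^ 40 * K ^ 8)) = 32 * (K ^ 12 * (K ^ 8)⁻¹) * u ^ 2 := by ring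
        rw [e', hK8]
      rw [e]
      gcongr
    have hlin : 2 ^ 45 * K ^ 12 * (9 * K * (K * u)) ≤ 23 * K ^ 4 * u ^ 2 := by
      have h1 : 9 * 2 ^ 45 * K ^ 10 ≤ 23 * u := by
        have h1011 : K ^ 10 ≤ K ^ 11 := pow_le_pow_right₀ hK (by norm_num)
        calc 9 * 2 ^ 45 * K ^ 10 = 9 * (2 ^ 45 * K ^ 10) := by ring
          _ ≤ 9 * (2 ^ 45 * K ^ 11) := by gcongr
          _ ≤ 9 * u := by linarith
          _ ≤ 23 * u := by linarith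
      calc 2 ^ 45 * K ^ 12 * (9 * K * (K * u)) = (9 * 2 ^ 45 * K ^ 10) * (K ^ 4 * u) := by ring
        _ ≤ (23 * u) * (K ^ 4 * u) := by gcongr
        _ = _ := by ring
    have e2 : 2 ^ 45 * K ^ 12 * ((((r - 1) ^ 2) ^ 3 / q ^ 2 - 3 * q / r) * r ^ 2 / n - 3 * K * (K * u) -
        2 * (3 * K * (K * u))) = 2 ^ 45 * K ^ 12 *
        ((((r - 1) ^ 2) ^ 3 / q ^ 2 - 3 * q / r) * r ^ 2 / n) -
        2 ^ 45 * K ^ 12 * (9 * K * (K * u)) := by ring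
    rw [e2]
    linarith

end GeomAux

open GeomAux in
/-- The geometric reduction: exact statement of #1761. -/
theorem geom_to_grid : ∃ (C E : ℝ), 1 ≤ C ∧ 1 ≤ E ∧ ∀ (F : Type) [Field F] [Fintype F] [DecidableEq F]
    (K : ℝ) (X : ℕ) (P L : Finset (F × F)), 1 ≤ K → (P.card : ℝ) ≤ Fintype.card F →
    (∀ l ∈ L, X ≤ (P.filter (fun p => p.2 = l.1 * p.1 + l.2)).card) →
    (Fintype.card F : ℝ) ^ 2 ≤ K * L.card * X ^ 2 → (X : ℝ) ^ 2 ≤ 4 * Fintype.card F →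
    Real.sqrt (Fintype.card F) ≤ K * X →
    Real.sqrt (Fintype.card F) ≤ C * K ^ E ∨
    ∃ (A B C' Λ : Finset F) (G : Finset (F × F)) (a0 b0 : F),
      GridData (3 * K * Real.sqrt (Fintype.card F)) (C * K ^ E) A B C' Λ G a0 b0 := by
  refine ⟨2 ^ 45, 12, by norm_num, by norm_num, ?_⟩
  intro F _ _ _ K X P L hK hP hX hqn hX2 hXs
  have hrp : K ^ (12 : ℝ) = K ^ 12 := by
    have := Real.rpow_natCast K 12
    simp only [Nat.cast_ofNat] at this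
    exact this
  rw [hrp]
  by_cases hsmall : Real.sqrt (Fintype.card F) ≤ 2 ^ 45 * K ^ 12
  · exact Or.inl hsmall
  right
  rw [not_le] at hsmall
  have hq0 : (0 : ℝ) ≤ Fintype.card F := Nat.cast_nonneg _
  have hs2 : Real.sqrt (Fintype.card F) ^ 2 = Fintype.card F := Real.sq_sqrt hq0
  generalize hs : Real.sqrt (Fintype.card F) = s at *
  generalize hq : ((Fintype.card F : ℕ) : ℝ) = q at *
  have hK0 : 0 < K := by linarith
  have hs0 : 0 < s := lt_trans (by positivity) hsmall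
  have hq1 : 0 < q := by rw [← hs2]; positivity
  have hX' : ∀ l ∈ L, X ≤ #(P.filter fun p => Inc p l) := by
    intro l hl
    have h := hX l hl
    have e : (P.filter fun p => Inc p l) = P.filter (fun p => p.2 = l.1 * p.1 + l.2) := by
      ext p; rw [mem_filter, mem_filter]; rfl
    rw [e]; exact h
  have hnupN := GeomComb.card_mul_le (Inc := Inc) uniq P L X hX'
  have hnup : (#L : ℝ) * ((X : ℝ) ^ 2 - X) ≤ q ^ 2 := by
    have h1 : ((X * X - X : ℕ) : ℝ) = (X : ℝ) ^ 2 - X := by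
      rw [Nat.cast_sub (Nat.le_mul_self X)]; push_cast; ring
    have h2 : (#L : ℝ) * ((X * X - X : ℕ) : ℝ) ≤ (#P : ℝ) ^ 2 := by exact_mod_cast hnupN
    rw [h1] at h2
    exact h2.trans (pow_le_pow_left₀ (Nat.cast_nonneg _) hP 2)
  have hfl := Nat.floor_le (a := s / (8 * K)) (by positivity)
  have hfl2 := Nat.lt_floor_add_one (s / (8 * K))
  obtain ⟨h1, h2, h3, h4, h5⟩ := num_core K s q X (#L) (⌊s / (8 * K)⌋₊) hK hs2 hsmall hXs hX2 hqn hnup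
    (Nat.cast_nonneg _) hfl hfl2
  have h3' : 3 ≤ ⌊s / (8 * K)⌋₊ := by exact_mod_cast h3
  obtain ⟨l₀, t₁, t₂, t₃, z₀, S₁, ht1, ht2, ht3, h12, h13, h23, hd1, hd2, hd3, hd0, hz0, -, -, hS, hcard⟩ :=
    GeomComb.comb_core (Inc := Inc) uniq P L X ⌊s / (8 * K)⌋₊ q (3 * K * s) hq1 (by positivity) hP hX' h1 h2 h3' h4
  obtain ⟨A, B, C', Λ, G, a0, b0, hA, hB, hC, hΛ, hsub, ha0, hb0, hsum, hrat, hG⟩ :=
    grid_of_core L (3 * K * s) l₀ t₁ t₂ t₃ z₀ S₁ ht1 ht2 ht3 h12 h13 h23 hd1 hd2 hd3 hd0 hz0 hS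
  refine ⟨A, B, C', Λ, G, a0, b0, ⟨hA, hB, hC, hΛ, hsub, ha0, hb0, hsum, hrat, ?_⟩⟩
  refine h5.trans ?_
  have : (0 : ℝ) ≤ 2 ^ 45 * K ^ 12 := by positivity
  refine mul_le_mul_of_nonneg_left ?_ this
  linarith

end Crest.Agent.Lib.NearBaer
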