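import Mathlib

/-!
Row 34, Theorem IT, geometric reduction, abstract part (steps (G1)-(G5) of finding #1761): double
counting in a partial linear space. No field here.
-/

set_option autoImplicit false

noncomputable section

open Finset

namespace Crest.Agent.Lib.NearBaer.GeomComb

variable {α β : Type*} [DecidableEq α] [DecidableEq β] (Inc : α → β → Prop) [∀ a b, Decidable (Inc a b)]

/-- Two distinct points are on at most one line. -/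
def Uniq : Prop := ∀ p p' l l', p ≠ p' → Inc p l → Inc p' l → Inc p l' → Inc p' l' → l = l'

/-- Incidences, counted two ways. -/
lemma sum_deg_eq (P : Finset α) (L : Finset β) :
    ∑ p ∈ P, #(L.filter (Inc p)) = ∑ l ∈ L, #(P.filter (fun p => Inc p l)) :=
  sum_card_bipartiteAbove_eq_sum_card_bipartiteBelow Inc

/-- The pairs of distinct points of `S` joined by a line of `L`. -/
def joined (S : Finset α) (L : Finset β) : Finset (α × α) :=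
  S.offDiag.filter (fun e => ∃ l ∈ L, Inc e.1 l ∧ Inc e.2 l)

variable {Inc}

lemma sum_offDiag_le (hU : Uniq Inc) (S : Finset α) (L : Finset β) :
    ∑ l ∈ L, #((S.filter (fun p => Inc p l)).offDiag) ≤ #(joined Inc S L) := by
  rw [← card_biUnion]
  · apply card_le_card
    intro e he
    obtain ⟨l, hl, he⟩ := mem_biUnion.1 he
    rw [mem_offDiag, mem_filter, mem_filter] at he
    refine mem_filter.2 ⟨mem_offDiag.2 ⟨he.1.1, he.2.1.1, he.2.2⟩, l, hl, he.1.2, he.2.1.2⟩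
  · intro l _ l' _ hne
    refine disjoint_left.2 fun e he he' => hne ?_
    rw [mem_offDiag, mem_filter, mem_filter] at he he'
    exact hU _ _ _ _ he.2.2 he.1.2 he.2.1.2 he'.1.2 he'.2.1.2

/-- Cauchy-Schwarz with the pairs. -/
lemma sq_inc_le (hU : Uniq Inc) (S : Finset α) (L : Finset β) :
    (∑ l ∈ L, #(S.filter (fun p => Inc p l))) ^ 2 ≤
      #L * (#(joined Inc S L) + ∑ l ∈ L, #(S.filter (fun p => Inc p l))) := by
  refine sq_sum_le_card_mul_sum_sq.trans (Nat.mul_le_mul_left _ ?_)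
  have : ∀ l ∈ L, #(S.filter (fun p => Inc p l)) ^ 2 =
      #((S.filter (fun p => Inc p l)).offDiag) + #(S.filter (fun p => Inc p l)) := by
    intro l _
    rw [offDiag_card, sq, Nat.sub_add_cancel (Nat.le_mul_self _)]
  rw [sum_congr rfl this, sum_add_distrib]
  exact Nat.add_le_add_right (sum_offDiag_le hU S L) _

lemma card_joined_le (S : Finset α) (L : Finset β) : #(joined Inc S L) ≤ #S ^ 2 := by
  calc #(joined Inc S L) ≤ #S.offDiag := card_filter_le _ _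
    _ ≤ #S * #S := by rw [offDiag_card]; exact Nat.sub_le _ _
    _ = #S ^ 2 := (sq _).symm

/-- Lower bound on the `x_l` implies an upper bound on the number of lines. -/
lemma card_mul_le (hU : Uniq Inc) (P : Finset α) (L : Finset β) (X : ℕ)
    (hX : ∀ l ∈ L, X ≤ #(P.filter (fun p => Inc p l))) :
    #L * (X * X - X) ≤ #P ^ 2 := by
  have h1 : ∑ l ∈ L, #((P.filter (fun p => Inc p l)).offDiag) ≤ #P ^ 2 :=
    (sum_offDiag_le hU P L).trans (card_joined_le P L)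
  have h2 : ∀ l ∈ L, X * X - X ≤ #((P.filter (fun p => Inc p l)).offDiag) := by
    intro l hl
    rw [offDiag_card]
    have := hX l hl
    obtain ⟨t, ht⟩ := Nat.exists_eq_add_of_le this
    rw [ht]
    have e1 : (X + t) * (X + t) - (X + t) = (X * X - X) + (2 * X * t + t * t - t) := by
      have : X ≤ X * X := Nat.le_mul_self _
      have : t ≤ t * t := Nat.le_mul_self _
      have e : (X + t) * (X + t) = X * X + (2 * X * t + t * t) := by ring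
      rw [e]
      omega
    omega
  calc #L * (X * X - X) = ∑ _l ∈ L, (X * X - X) := by simp
    _ ≤ ∑ l ∈ L, #((P.filter (fun p => Inc p l)).offDiag) := sum_le_sum h2
    _ ≤ #P ^ 2 := h1

/-- Heavy points carry few incidences. `D₀` is a real threshold with `4 n ≤ D₀²`. -/
lemma heavy_incidences (hU : Uniq Inc) (P : Finset α) (L : Finset β) (D₀ : ℝ) (hD0 : 0 ≤ D₀)
    (hD : 4 * (#L : ℝ) ≤ D₀ ^ 2) :
    ((∑ l ∈ L, #((P.filter (fun p => D₀ ≤ (#(L.filter (Inc p)) : ℝ))).filter (fun p => Inc p l)) : ℕ) : ℝ)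
      ≤ 2 * #L := by
  set H := P.filter (fun p => D₀ ≤ (#(L.filter (Inc p)) : ℝ)) with hH
  set I : ℕ := ∑ l ∈ L, #(H.filter (fun p => Inc p l)) with hI
  have h1 : I ^ 2 ≤ #L * (#H ^ 2 + I) :=
    (sq_inc_le hU H L).trans (Nat.mul_le_mul_left _ (Nat.add_le_add_right (card_joined_le H L) _))
  have h2 : D₀ * #H ≤ (I : ℝ) := by
    have e : I = ∑ p ∈ H, #(L.filter (Inc p)) := (sum_deg_eq Inc H L).symm
    rw [e]
    push_cast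
    calc D₀ * #H = ∑ _p ∈ H, D₀ := by simp [mul_comm]
      _ ≤ ∑ p ∈ H, (#(L.filter (Inc p)) : ℝ) := sum_le_sum fun p hp => (mem_filter.1 hp).2
  have h1' : (I : ℝ) ^ 2 ≤ #L * ((#H : ℝ) ^ 2 + I) := by exact_mod_cast h1
  have hInn : (0 : ℝ) ≤ I := Nat.cast_nonneg _
  have hHnn : (0 : ℝ) ≤ #H := Nat.cast_nonneg _
  have hLnn : (0 : ℝ) ≤ #L := Nat.cast_nonneg _
  have h3 : 4 * ((#L : ℝ) * (#H : ℝ) ^ 2) ≤ (I : ℝ) ^ 2 := by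
    have : (D₀ * #H) ^ 2 ≤ (I : ℝ) ^ 2 := pow_le_pow_left₀ (mul_nonneg hD0 hHnn) h2 2
    calc 4 * ((#L : ℝ) * (#H : ℝ) ^ 2) = (4 * (#L : ℝ)) * (#H : ℝ) ^ 2 := by ring
      _ ≤ D₀ ^ 2 * (#H : ℝ) ^ 2 := by gcongr
      _ = (D₀ * #H) ^ 2 := by ring
      _ ≤ _ := this
  have h4 : 3 * (I : ℝ) ^ 2 ≤ 4 * #L * I := by nlinarith
  by_contra hcon
  rw [not_le] at hcon
  have h5 : (0 : ℝ) < I := by linarith
  have h6 : 3 * (I : ℝ) ≤ 4 * #L := by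
    have : 3 * (I : ℝ) * I ≤ 4 * #L * I := by nlinarith
    exact le_of_mul_le_mul_right this h5
  linarith

/-- Pruning: a bipartite graph with many edges has a non empty sub-bipartite graph of large minimum
degrees. -/
theorem prune (P : Finset α) (L : Finset β) (a b : ℕ)
    (h : a * #P + b * #L < ∑ p ∈ P, #(L.filter (Inc p))) :
    ∃ P' ⊆ P, ∃ L' ⊆ L, P'.Nonempty ∧ L'.Nonempty ∧
      (∀ p ∈ P', a ≤ #(L'.filter (Inc p))) ∧ (∀ l ∈ L', b ≤ #(P'.filter fun p => Inc p l)) := by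
  induction hn : #P + #L using Nat.strong_induction_on generalizing P L with
  | _ n ih =>
    by_cases h1 : ∃ p ∈ P, #(L.filter (Inc p)) < a
    · obtain ⟨p, hp, hlt⟩ := h1
      have hs := add_sum_erase P (fun p => #(L.filter (Inc p))) hp
      have hc := card_erase_of_mem hp
      have hpos : 0 < #P := card_pos.2 ⟨p, hp⟩
      obtain ⟨P', hP', L', hL', r⟩ := ih (#(P.erase p) + #L) (by omega) (P.erase p) L (by
        rw [hc]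
        have : a * (#P - 1) + a = a * #P := by
          obtain ⟨k, hk⟩ : ∃ k, #P = k + 1 := ⟨#P - 1, by omega⟩
          rw [hk]; simp; ring
        omega) rfl
      exact ⟨P', hP'.trans (erase_subset _ _), L', hL', r⟩
    by_cases h2 : ∃ l ∈ L, #(P.filter (fun p => Inc p l)) < b
    · obtain ⟨l, hl, hlt⟩ := h2
      have hs := add_sum_erase L (fun l => #(P.filter (fun p => Inc p l))) hl
      have hc := card_erase_of_mem hl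
      have hpos : 0 < #L := card_pos.2 ⟨l, hl⟩
      obtain ⟨P', hP', L', hL', r⟩ := ih (#P + #(L.erase l)) (by omega) P (L.erase l) (by
        rw [hc, sum_deg_eq Inc P (L.erase l)]
        rw [sum_deg_eq Inc P L] at h
        have : b * (#L - 1) + b = b * #L := by
          obtain ⟨k, hk⟩ : ∃ k, #L = k + 1 := ⟨#L - 1, by omega⟩
          rw [hk]; simp; ring
        omega) rfl
      exact ⟨P', hP', L', hL'.trans (erase_subset _ _), r⟩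
    simp only [not_exists, not_and, not_lt] at h1 h2
    have hne : (∑ p ∈ P, #(L.filter (Inc p))) ≠ 0 := by omega
    have hPne : P.Nonempty := by
      rw [nonempty_iff_ne_empty]; rintro rfl; simp at hne
    have hLne : L.Nonempty := by
      rw [nonempty_iff_ne_empty]; rintro rfl; simp at hne
    exact ⟨P, Subset.rfl, L, Subset.rfl, hPne, hLne, h1, h2⟩

/-- Neighbours of a point `t` of a fixed line `l₀`. -/
def nbrs (Ps : Finset α) (Ls : Finset β) (l₀ : β) (t : α) : Finset α :=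
  Ps.filter fun z => ¬ Inc z l₀ ∧ ∃ l ∈ Ls, Inc t l ∧ Inc z l

lemma card_nbrs_ge (hU : Uniq Inc) (Ps : Finset α) (Ls : Finset β) (l₀ : β) (r : ℕ)
    (hp : ∀ p ∈ Ps, r ≤ #(Ls.filter (Inc p))) (hl : ∀ l ∈ Ls, r ≤ #(Ps.filter fun p => Inc p l))
    (t : α) (ht : t ∈ Ps) (htl : Inc t l₀) :
    (r - 1) ^ 2 ≤ #(nbrs (Inc := Inc) Ps Ls l₀ t) := by
  set Lt := (Ls.filter (Inc t)).erase l₀ with hLt
  have hLtc : r - 1 ≤ #Lt := by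
    have h0 : #(Ls.filter (Inc t)) - 1 ≤ #Lt := pred_card_le_card_erase
    have := hp t ht
    omega
  let Sl : β → Finset α := fun l => (Ps.filter fun p => Inc p l).erase t
  have hSl : ∀ l ∈ Lt, r - 1 ≤ #(Sl l) := by
    intro l hl'
    have hl'' : l ∈ Ls := (mem_filter.1 (mem_of_mem_erase hl')).1
    have h0 : #(Ps.filter fun p => Inc p l) - 1 ≤ #(Sl l) := pred_card_le_card_erase
    have := hl l hl''
    omega
  have hdisj : (Lt : Set β).PairwiseDisjoint Sl := by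
    intro l hl1 l' hl2 hne
    refine disjoint_left.2 fun z hz hz' => hne ?_
    have hl1' := (mem_filter.1 (mem_of_mem_erase (mem_coe.1 hl1))).2
    have hl2' := (mem_filter.1 (mem_of_mem_erase (mem_coe.1 hl2))).2
    simp only [Sl, mem_erase, mem_filter] at hz hz'
    exact hU z t l l' hz.1 hz.2.2 hl1' hz'.2.2 hl2'
  have hsub : Lt.biUnion Sl ⊆ nbrs (Inc := Inc) Ps Ls l₀ t := by
    intro z hz
    obtain ⟨l, hl', hz⟩ := mem_biUnion.1 hz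
    simp only [Sl, mem_erase, mem_filter] at hz
    have hl1 := mem_erase.1 hl'
    have hl2 := mem_filter.1 hl1.2
    refine mem_filter.2 ⟨hz.2.1, fun hz0 => hl1.1 ?_, l, hl2.1, hl2.2, hz.2.2⟩
    exact hU z t l l₀ hz.1 hz.2.2 hl2.2 hz0 htl
  calc (r - 1) ^ 2 = (r - 1) * (r - 1) := sq _
    _ ≤ #Lt * (r - 1) := Nat.mul_le_mul_right _ hLtc
    _ = ∑ _l ∈ Lt, (r - 1) := by simp
    _ ≤ ∑ l ∈ Lt, #(Sl l) := sum_le_sum hSl
    _ = #(Lt.biUnion Sl) := (card_biUnion hdisj).symm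
    _ ≤ _ := card_le_card hsub

lemma cube_sum_eq {γ δ : Type*} [DecidableEq γ] [DecidableEq δ] (T : Finset γ) (Q : Finset δ)
    (N : γ → Finset δ) :
    ∑ z ∈ Q, #(T.filter fun t => z ∈ N t) ^ 3 =
      ∑ e ∈ T ×ˢ T ×ˢ T, #(Q.filter fun z => z ∈ N e.1 ∩ N e.2.1 ∩ N e.2.2) := by
  have hd3 : ∀ z, #(T.filter fun t => z ∈ N t) ^ 3 =
      #((T ×ˢ T ×ˢ T).filter fun e => z ∈ N e.1 ∩ N e.2.1 ∩ N e.2.2) := by
    intro z
    have : (T ×ˢ T ×ˢ T).filter (fun e => z ∈ N e.1 ∩ N e.2.1 ∩ N e.2.2) =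
        (T.filter fun t => z ∈ N t) ×ˢ (T.filter fun t => z ∈ N t) ×ˢ (T.filter fun t => z ∈ N t) := by
      ext ⟨a, b, c⟩
      simp only [mem_filter, mem_product, mem_inter]
      constructor
      · rintro ⟨⟨ha, hb, hc⟩, ⟨h1, h2⟩, h3⟩
        exact ⟨⟨ha, h1⟩, ⟨hb, h2⟩, ⟨hc, h3⟩⟩
      · rintro ⟨⟨ha, h1⟩, ⟨hb, h2⟩, ⟨hc, h3⟩⟩
        exact ⟨⟨ha, hb, hc⟩, ⟨h1, h2⟩, h3⟩
    rw [this, card_product, card_product]
    ring
  rw [sum_congr rfl fun z _ => hd3 z]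
  have h := sum_card_bipartiteAbove_eq_sum_card_bipartiteBelow (s := Q) (t := T ×ˢ T ×ˢ T)
    (fun z e => z ∈ N e.1 ∩ N e.2.1 ∩ N e.2.2)
  simpa only [bipartiteAbove, bipartiteBelow] using h

lemma cube_lower {γ δ : Type*} [DecidableEq γ] [DecidableEq δ] (T : Finset γ) (Q : Finset δ)
    (N : γ → Finset δ) (hN : ∀ t ∈ T, N t ⊆ Q) (q w : ℝ) (hq : 0 < q) (hQ : (#Q : ℝ) ≤ q)
    (hw : 0 ≤ w) (hNw : ∀ t ∈ T, w ≤ #(N t)) :
    (((#T : ℕ) : ℝ) * w) ^ 3 / q ^ 2 ≤ ((∑ z ∈ Q, #(T.filter fun t => z ∈ N t) ^ 3 : ℕ) : ℝ) := by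
  have hsumd : ∑ z ∈ Q, #(T.filter fun t => z ∈ N t) = ∑ t ∈ T, #(Q.filter fun z => z ∈ N t) :=
    sum_card_bipartiteAbove_eq_sum_card_bipartiteBelow (fun z t => z ∈ N t)
  have hsumd' : ∑ z ∈ Q, #(T.filter fun t => z ∈ N t) = ∑ t ∈ T, #(N t) := by
    rw [hsumd]
    refine sum_congr rfl fun t ht => ?_
    rw [filter_mem_eq_inter, inter_eq_right.2 (hN t ht)]
  have hsum1 : ((#T : ℕ) : ℝ) * w ≤ ((∑ z ∈ Q, #(T.filter fun t => z ∈ N t) : ℕ) : ℝ) := by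
    rw [hsumd']; push_cast
    calc ((#T : ℕ) : ℝ) * w = ∑ _t ∈ T, w := by simp
      _ ≤ _ := sum_le_sum hNw
  have hpow : (∑ z ∈ Q, ((#(T.filter fun t => z ∈ N t) : ℕ) : ℝ)) ^ 3 ≤
      (#Q : ℝ) ^ 2 * ∑ z ∈ Q, ((#(T.filter fun t => z ∈ N t) : ℕ) : ℝ) ^ 3 :=
    pow_sum_le_card_mul_sum_pow (fun z _ => Nat.cast_nonneg _) 2
  push_cast at hsum1 ⊢
  have hd3nn : 0 ≤ ∑ z ∈ Q, ((#(T.filter fun t => z ∈ N t) : ℕ) : ℝ) ^ 3 :=
    sum_nonneg fun z _ => pow_nonneg (Nat.cast_nonneg _) 3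
  rw [div_le_iff₀ (pow_pos hq 2)]
  have h1 : (((#T : ℕ) : ℝ) * w) ^ 3 ≤ (∑ z ∈ Q, ((#(T.filter fun t => z ∈ N t) : ℕ) : ℝ)) ^ 3 :=
    pow_le_pow_left₀ (mul_nonneg (Nat.cast_nonneg _) hw) hsum1 3
  have h2 : (#Q : ℝ) ^ 2 * ∑ z ∈ Q, ((#(T.filter fun t => z ∈ N t) : ℕ) : ℝ) ^ 3 ≤
      q ^ 2 * ∑ z ∈ Q, ((#(T.filter fun t => z ∈ N t) : ℕ) : ℝ) ^ 3 :=
    mul_le_mul_of_nonneg_right (pow_le_pow_left₀ (Nat.cast_nonneg _) hQ 2) hd3nn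
  linarith

/-- The triples with a repeated entry. -/
lemma card_bad_triples {γ : Type*} [DecidableEq γ] (T : Finset γ) :
    #((T ×ˢ T ×ˢ T).filter fun e => ¬ (e.1 ≠ e.2.1 ∧ e.1 ≠ e.2.2 ∧ e.2.1 ≠ e.2.2)) ≤ 3 * #T ^ 2 := by
  let f1 : γ × γ → γ × γ × γ := fun a => (a.1, a.1, a.2)
  let f2 : γ × γ → γ × γ × γ := fun a => (a.1, a.2, a.1)
  let f3 : γ × γ → γ × γ × γ := fun a => (a.1, a.2, a.2)
  have hsub : ((T ×ˢ T ×ˢ T).filter fun e => ¬ (e.1 ≠ e.2.1 ∧ e.1 ≠ e.2.2 ∧ e.2.1 ≠ e.2.2)) ⊆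
      ((T ×ˢ T).image f1 ∪ (T ×ˢ T).image f2) ∪ (T ×ˢ T).image f3 := by
    rintro ⟨a, b, c⟩ he
    obtain ⟨he1, he2⟩ := mem_filter.1 he
    simp only [mem_product] at he1
    simp only [ne_eq, not_and_or, not_not] at he2
    simp only [mem_union, mem_image, mem_product, f1, f2, f3, Prod.exists, Prod.mk.injEq]
    rcases he2 with h | h | h
    · subst h
      exact Or.inl (Or.inl ⟨a, c, ⟨he1.1, he1.2.2⟩, rfl, rfl, rfl⟩)
    · subst h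
      exact Or.inl (Or.inr ⟨a, b, ⟨he1.1, he1.2.1⟩, rfl, rfl, rfl⟩)
    · subst h
      exact Or.inr ⟨a, b, ⟨he1.1, he1.2.1⟩, rfl, rfl, rfl⟩
  refine (card_le_card hsub).trans ?_
  refine (card_union_le _ _).trans ?_
  have e1 : #((T ×ˢ T).image f1) ≤ #T ^ 2 := by
    refine card_image_le.trans (le_of_eq ?_); rw [card_product]; ring
  have e2 : #((T ×ˢ T).image f2) ≤ #T ^ 2 := by
    refine card_image_le.trans (le_of_eq ?_); rw [card_product]; ring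
  have e3 : #((T ×ˢ T).image f3) ≤ #T ^ 2 := by
    refine card_image_le.trans (le_of_eq ?_); rw [card_product]; ring
  have := card_union_le ((T ×ˢ T).image f1) ((T ×ˢ T).image f2)
  omega

/-- Triple pigeonhole. `N t ⊆ Q`, `|Q| ≤ q`, `w ≤ |N t|`. Then there are distinct `t₁ t₂ t₃ ∈ T` with
`|N t₁ ∩ N t₂ ∩ N t₃|` at least `w³/q² - 3q/|T|`. -/
lemma triple_pigeonhole {γ δ : Type*} [DecidableEq γ] [DecidableEq δ] (T : Finset γ) (Q : Finset δ)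
    (N : γ → Finset δ) (hN : ∀ t ∈ T, N t ⊆ Q) (q w : ℝ) (hq : 0 < q) (hQ : (#Q : ℝ) ≤ q)
    (hw : 0 ≤ w) (hNw : ∀ t ∈ T, w ≤ #(N t)) (hT : T.Nonempty)
    (h3 : 3 * q / ((#T : ℕ) : ℝ) < w ^ 3 / q ^ 2) :
    ∃ t₁ ∈ T, ∃ t₂ ∈ T, ∃ t₃ ∈ T, t₁ ≠ t₂ ∧ t₁ ≠ t₃ ∧ t₂ ≠ t₃ ∧
      w ^ 3 / q ^ 2 - 3 * q / ((#T : ℕ) : ℝ) ≤ #(N t₁ ∩ N t₂ ∩ N t₃) := by
  have hlow := cube_lower T Q N hN q w hq hQ hw hNw
  rw [cube_sum_eq] at hlow
  generalize hrr : ((#T : ℕ) : ℝ) = r at *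
  have hrpos : 0 < r := by rw [← hrr]; exact_mod_cast hT.card_pos
  have hc : ∃ c : ℝ, c = w ^ 3 / q ^ 2 - 3 * q / r := ⟨_, rfl⟩
  obtain ⟨c, hc⟩ := hc
  rw [← hc]
  have hcpos : 0 < c := by rw [hc]; linarith
  by_contra hcon
  simp only [not_exists, not_and, not_le] at hcon
  have hbad : ∀ e ∈ (T ×ˢ T ×ˢ T).filter (fun e => e.1 ≠ e.2.1 ∧ e.1 ≠ e.2.2 ∧ e.2.1 ≠ e.2.2),
      (#(N e.1 ∩ N e.2.1 ∩ N e.2.2) : ℝ) < c := by
    intro e he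
    obtain ⟨he1, he2⟩ := mem_filter.1 he
    simp only [mem_product] at he1
    exact hcon e.1 he1.1 e.2.1 he1.2.1 e.2.2 he1.2.2 he2.1 he2.2.1 he2.2.2
  have hD : ∑ e ∈ (T ×ˢ T ×ˢ T).filter (fun e => e.1 ≠ e.2.1 ∧ e.1 ≠ e.2.2 ∧ e.2.1 ≠ e.2.2),
      (#(N e.1 ∩ N e.2.1 ∩ N e.2.2) : ℝ) < r ^ 3 * c := by
    have hcardTr : (#((T ×ˢ T ×ˢ T).filter (fun e => e.1 ≠ e.2.1 ∧ e.1 ≠ e.2.2 ∧ e.2.1 ≠ e.2.2)) : ℝ)
        ≤ r ^ 3 := by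
      have : #((T ×ˢ T ×ˢ T).filter (fun e => e.1 ≠ e.2.1 ∧ e.1 ≠ e.2.2 ∧ e.2.1 ≠ e.2.2)) ≤ #T ^ 3 := by
        refine (card_filter_le _ _).trans ?_
        simp only [card_product]
        exact le_of_eq (by ring)
      rw [← hrr]; exact_mod_cast this
    rcases ((T ×ˢ T ×ˢ T).filter (fun e => e.1 ≠ e.2.1 ∧ e.1 ≠ e.2.2 ∧ e.2.1 ≠ e.2.2)).eq_empty_or_nonempty
      with h0 | hne
    · rw [h0, sum_empty]; positivity
    · calc ∑ e ∈ (T ×ˢ T ×ˢ T).filter (fun e => e.1 ≠ e.2.1 ∧ e.1 ≠ e.2.2 ∧ e.2.1 ≠ e.2.2),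
            (#(N e.1 ∩ N e.2.1 ∩ N e.2.2) : ℝ)
          < ∑ _e ∈ (T ×ˢ T ×ˢ T).filter (fun e => e.1 ≠ e.2.1 ∧ e.1 ≠ e.2.2 ∧ e.2.1 ≠ e.2.2), c :=
            sum_lt_sum_of_nonempty hne hbad
        _ = (#((T ×ˢ T ×ˢ T).filter (fun e => e.1 ≠ e.2.1 ∧ e.1 ≠ e.2.2 ∧ e.2.1 ≠ e.2.2)) : ℝ) * c := by
            simp
        _ ≤ r ^ 3 * c := mul_le_mul_of_nonneg_right hcardTr hcpos.le
  have hN' : ∑ e ∈ (T ×ˢ T ×ˢ T).filter (fun e => ¬ (e.1 ≠ e.2.1 ∧ e.1 ≠ e.2.2 ∧ e.2.1 ≠ e.2.2)),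
      (#(Q.filter fun z => z ∈ N e.1 ∩ N e.2.1 ∩ N e.2.2) : ℝ) ≤ 3 * r ^ 2 * q := by
    have hcard := card_bad_triples T
    calc ∑ e ∈ (T ×ˢ T ×ˢ T).filter (fun e => ¬ (e.1 ≠ e.2.1 ∧ e.1 ≠ e.2.2 ∧ e.2.1 ≠ e.2.2)),
          (#(Q.filter fun z => z ∈ N e.1 ∩ N e.2.1 ∩ N e.2.2) : ℝ)
        ≤ ∑ _e ∈ (T ×ˢ T ×ˢ T).filter (fun e => ¬ (e.1 ≠ e.2.1 ∧ e.1 ≠ e.2.2 ∧ e.2.1 ≠ e.2.2)), q := by
          refine sum_le_sum fun e _ => ?_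
          exact le_trans (by exact_mod_cast card_filter_le _ _) hQ
      _ = (#((T ×ˢ T ×ˢ T).filter (fun e => ¬ (e.1 ≠ e.2.1 ∧ e.1 ≠ e.2.2 ∧ e.2.1 ≠ e.2.2))) : ℝ) * q := by
          simp
      _ ≤ (3 * r ^ 2) * q := by
          refine mul_le_mul_of_nonneg_right ?_ hq.le
          rw [← hrr]; exact_mod_cast hcard
      _ = _ := by ring
  have htot : ((∑ e ∈ T ×ˢ T ×ˢ T, #(Q.filter fun z => z ∈ N e.1 ∩ N e.2.1 ∩ N e.2.2) : ℕ) : ℝ) =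
      ∑ e ∈ (T ×ˢ T ×ˢ T).filter (fun e => e.1 ≠ e.2.1 ∧ e.1 ≠ e.2.2 ∧ e.2.1 ≠ e.2.2),
        (#(Q.filter fun z => z ∈ N e.1 ∩ N e.2.1 ∩ N e.2.2) : ℝ) +
      ∑ e ∈ (T ×ˢ T ×ˢ T).filter (fun e => ¬ (e.1 ≠ e.2.1 ∧ e.1 ≠ e.2.2 ∧ e.2.1 ≠ e.2.2)),
        (#(Q.filter fun z => z ∈ N e.1 ∩ N e.2.1 ∩ N e.2.2) : ℝ) := by
    rw [sum_filter_add_sum_filter_not]
    push_cast
    rfl
  have hD' : ∑ e ∈ (T ×ˢ T ×ˢ T).filter (fun e => e.1 ≠ e.2.1 ∧ e.1 ≠ e.2.2 ∧ e.2.1 ≠ e.2.2),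
      (#(Q.filter fun z => z ∈ N e.1 ∩ N e.2.1 ∩ N e.2.2) : ℝ) < r ^ 3 * c := by
    refine lt_of_le_of_lt (sum_le_sum fun e he => ?_) hD
    have hsub : (Q.filter fun z => z ∈ N e.1 ∩ N e.2.1 ∩ N e.2.2) ⊆ N e.1 ∩ N e.2.1 ∩ N e.2.2 :=
      fun z hz => (mem_filter.1 hz).2
    exact_mod_cast card_le_card hsub
  have hfin : (r * w) ^ 3 / q ^ 2 < r ^ 3 * c + 3 * r ^ 2 * q := by linarith
  have hid : r ^ 3 * c + 3 * r ^ 2 * q = (r * w) ^ 3 / q ^ 2 := by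
    rw [hc]; field_simp; ring
  linarith

/-- Choice of `z₀`: Cauchy-Schwarz on the lines, average over `z₀`. -/
lemma exists_z0 (hU : Uniq Inc) (S : Finset α) (Ls : Finset β) (r : ℕ) (D₀ : ℝ) (hS : S.Nonempty)
    (hLs : Ls.Nonempty) (hdeg : ∀ z ∈ S, r ≤ #(Ls.filter (Inc z)))
    (hD : ∀ z ∈ S, (#(Ls.filter (Inc z)) : ℝ) ≤ D₀) :
    ∃ z₀ ∈ S, (#S : ℝ) * r ^ 2 / #Ls - D₀ ≤
      #(S.filter fun z => z ≠ z₀ ∧ ∃ l ∈ Ls, Inc z l ∧ Inc z₀ l) := by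
  set n : ℝ := ((#Ls : ℕ) : ℝ) with hn
  have hnpos : 0 < n := by rw [hn]; exact_mod_cast hLs.card_pos
  set c : ℝ := (#S : ℝ) * r ^ 2 / n - D₀ with hc
  by_contra hcon
  simp only [not_exists, not_and, not_le] at hcon
  set I : ℕ := ∑ l ∈ Ls, #(S.filter (fun p => Inc p l)) with hI
  have hIe : I = ∑ z ∈ S, #(Ls.filter (Inc z)) := (sum_deg_eq Inc S Ls).symm
  have hIlow : (#S : ℝ) * r ≤ I := by
    rw [hIe]; push_cast
    calc (#S : ℝ) * r = ∑ _z ∈ S, (r : ℝ) := by simp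
      _ ≤ _ := sum_le_sum fun z hz => by exact_mod_cast hdeg z hz
  have hIhigh : (I : ℝ) ≤ #S * D₀ := by
    rw [hIe]; push_cast
    calc ∑ z ∈ S, (#(Ls.filter (Inc z)) : ℝ) ≤ ∑ _z ∈ S, D₀ := sum_le_sum hD
      _ = _ := by simp
  have hJ : (#(joined Inc S Ls) : ℝ) < #S * c := by
    have hsub : joined Inc S Ls ⊆ S.biUnion fun z₀ =>
        (S.filter fun z => z ≠ z₀ ∧ ∃ l ∈ Ls, Inc z l ∧ Inc z₀ l).image fun z => (z, z₀) := by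
      rintro ⟨a, b⟩ he
      obtain ⟨he1, l, hl, h1, h2⟩ := mem_filter.1 he
      rw [mem_offDiag] at he1
      refine mem_biUnion.2 ⟨b, he1.2.1, mem_image.2 ⟨a, mem_filter.2 ⟨he1.1, he1.2.2, l, hl, h1, h2⟩, rfl⟩⟩
    calc (#(joined Inc S Ls) : ℝ)
        ≤ ∑ z₀ ∈ S, (#(S.filter fun z => z ≠ z₀ ∧ ∃ l ∈ Ls, Inc z l ∧ Inc z₀ l) : ℝ) := by
          have h1 := (card_le_card hsub).trans card_biUnion_le
          have h2 : ∑ z₀ ∈ S, #((S.filter fun z => z ≠ z₀ ∧ ∃ l ∈ Ls, Inc z l ∧ Inc z₀ l).image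
              fun z => (z, z₀)) ≤ ∑ z₀ ∈ S, #(S.filter fun z => z ≠ z₀ ∧ ∃ l ∈ Ls, Inc z l ∧ Inc z₀ l) :=
            sum_le_sum fun z₀ _ => card_image_le
          exact_mod_cast h1.trans h2
      _ < ∑ _z₀ ∈ S, c := sum_lt_sum_of_nonempty hS hcon
      _ = _ := by simp
  have hmain := sq_inc_le hU S Ls
  have hmain' : (I : ℝ) ^ 2 ≤ n * (#(joined Inc S Ls) + I) := by
    rw [hn]; exact_mod_cast hmain
  have hSnn : (0 : ℝ) ≤ #S := Nat.cast_nonneg _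
  have hrnn : (0 : ℝ) ≤ r := Nat.cast_nonneg _
  have h1 : ((#S : ℝ) * r) ^ 2 ≤ (I : ℝ) ^ 2 := pow_le_pow_left₀ (by positivity) hIlow 2
  have h2 : n * (#S * c) = (#S : ℝ) ^ 2 * r ^ 2 - n * (#S * D₀) := by
    rw [hc]; field_simp
  have h3 : n * (#(joined Inc S Ls) : ℝ) < n * (#S * c) := by gcongr
  have h4 : n * (I : ℝ) ≤ n * (#S * D₀) := by gcongr
  nlinarith

/-- The output of the counting. -/
theorem comb_core (hU : Uniq Inc) (P : Finset α) (L : Finset β) (X r : ℕ) (q D₀ : ℝ) (hq : 0 < q)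
    (hD0 : 0 ≤ D₀) (hP : (#P : ℝ) ≤ q) (hX : ∀ l ∈ L, X ≤ #(P.filter fun p => Inc p l))
    (hD : 4 * (#L : ℝ) ≤ D₀ ^ 2)
    (hn : (r : ℝ) * q + r * #L + 2 * #L < #L * X) (hr : 3 ≤ r)
    (hw : 3 * q / r < ((((r : ℝ) - 1) ^ 2) ^ 3 / q ^ 2)) :
    ∃ (l₀ : β) (t₁ t₂ t₃ z₀ : α) (S₁ : Finset α),
      Inc t₁ l₀ ∧ Inc t₂ l₀ ∧ Inc t₃ l₀ ∧ t₁ ≠ t₂ ∧ t₁ ≠ t₃ ∧ t₂ ≠ t₃ ∧
      ((#(L.filter (Inc t₁)) : ℝ) ≤ D₀) ∧ ((#(L.filter (Inc t₂)) : ℝ) ≤ D₀) ∧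
      ((#(L.filter (Inc t₃)) : ℝ) ≤ D₀) ∧ ((#(L.filter (Inc z₀)) : ℝ) ≤ D₀) ∧
      ¬ Inc z₀ l₀ ∧ (∃ l ∈ L, Inc t₁ l ∧ Inc z₀ l) ∧ (∃ l ∈ L, Inc t₂ l ∧ Inc z₀ l) ∧
      (∀ z ∈ S₁, ¬ Inc z l₀ ∧ (∃ l ∈ L, Inc t₁ l ∧ Inc z l) ∧ (∃ l ∈ L, Inc t₂ l ∧ Inc z l) ∧
        (∃ l ∈ L, Inc t₃ l ∧ Inc z l) ∧ (∃ l ∈ L, Inc z l ∧ Inc z₀ l)) ∧
      ((((((r : ℝ) - 1) ^ 2) ^ 3 / q ^ 2 - 3 * q / r) * r ^ 2 / #L - D₀) ≤ #S₁) := by
  classical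
  set n : ℝ := ((#L : ℕ) : ℝ) with hndef
  have hrpos : (0 : ℝ) < r := by exact_mod_cast (by omega : 0 < r)
  have hw0 : (0 : ℝ) ≤ ((r : ℝ) - 1) ^ 2 := sq_nonneg _
  -- light points
  set H := P.filter (fun p => D₀ ≤ (#(L.filter (Inc p)) : ℝ)) with hH
  set P1 := P.filter (fun p => ¬ D₀ ≤ (#(L.filter (Inc p)) : ℝ)) with hP1
  have hsplit : ∑ p ∈ P, #(L.filter (Inc p)) =
      ∑ p ∈ H, #(L.filter (Inc p)) + ∑ p ∈ P1, #(L.filter (Inc p)) :=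
    (sum_filter_add_sum_filter_not _ _ _).symm
  have hheavy : ((∑ p ∈ H, #(L.filter (Inc p)) : ℕ) : ℝ) ≤ 2 * n := by
    rw [sum_deg_eq Inc H L]
    exact heavy_incidences hU P L D₀ hD0 hD
  have hall : n * X ≤ ((∑ p ∈ P, #(L.filter (Inc p)) : ℕ) : ℝ) := by
    rw [sum_deg_eq Inc P L]; push_cast
    calc n * X = ∑ _l ∈ L, (X : ℝ) := by simp [hndef]
      _ ≤ _ := sum_le_sum fun l hl => by exact_mod_cast hX l hl
  have hP1c : (#P1 : ℝ) ≤ q := le_trans (by exact_mod_cast card_le_card (filter_subset _ _)) hP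
  have hprune : r * #P1 + r * #L < ∑ p ∈ P1, #(L.filter (Inc p)) := by
    have h1 : ((r * #P1 + r * #L : ℕ) : ℝ) < ((∑ p ∈ P1, #(L.filter (Inc p)) : ℕ) : ℝ) := by
      have h2 : ((∑ p ∈ P, #(L.filter (Inc p)) : ℕ) : ℝ) =
          ((∑ p ∈ H, #(L.filter (Inc p)) : ℕ) : ℝ) + ((∑ p ∈ P1, #(L.filter (Inc p)) : ℕ) : ℝ) := by
        rw [hsplit]; push_cast; rfl
      have h3 : (r : ℝ) * #P1 ≤ r * q := by gcongr
      push_cast at h2 hall hheavy ⊢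
      linarith
    exact_mod_cast h1
  obtain ⟨Ps, hPs, Ls, hLs, hPne, hLne, hdp, hdl⟩ := prune (Inc := Inc) P1 L r r hprune
  obtain ⟨l₀, hl₀⟩ := hLne
  -- the points on `l₀`
  obtain ⟨T, hTsub, hTc⟩ := exists_subset_card_eq (hdl l₀ hl₀)
  have hTne : T.Nonempty := by rw [← card_pos, hTc]; omega
  have hTP : ∀ t ∈ T, t ∈ Ps ∧ Inc t l₀ := fun t ht => mem_filter.1 (hTsub ht)
  set w : ℝ := ((r : ℝ) - 1) ^ 2 with hwdef
  have hNw : ∀ t ∈ T, w ≤ #(nbrs (Inc := Inc) Ps Ls l₀ t) := by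
    intro t ht
    have h := card_nbrs_ge hU Ps Ls l₀ r hdp hdl t (hTP t ht).1 (hTP t ht).2
    have h' : (((r - 1) ^ 2 : ℕ) : ℝ) ≤ #(nbrs (Inc := Inc) Ps Ls l₀ t) := by exact_mod_cast h
    have e : (((r - 1) ^ 2 : ℕ) : ℝ) = w := by
      rw [hwdef]; push_cast [Nat.cast_sub (by omega : 1 ≤ r)]; ring
    rwa [e] at h'
  have hPsc : (#Ps : ℝ) ≤ q :=
    le_trans (by exact_mod_cast card_le_card hPs) hP1c
  have hTc' : (#T : ℝ) = r := by rw [hTc]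
  obtain ⟨t₁, ht₁, t₂, ht₂, t₃, ht₃, h12, h13, h23, hS0⟩ :=
    triple_pigeonhole T Ps (nbrs (Inc := Inc) Ps Ls l₀) (fun t _ => filter_subset _ _) q w hq hPsc hw0 hNw hTne
      (by rw [hTc']; exact hw)
  rw [hTc'] at hS0
  set S0 := nbrs (Inc := Inc) Ps Ls l₀ t₁ ∩ nbrs (Inc := Inc) Ps Ls l₀ t₂ ∩ nbrs (Inc := Inc) Ps Ls l₀ t₃ with hS0def
  have hcpos : 0 < w ^ 3 / q ^ 2 - 3 * q / r := by linarith
  have hS0ne : S0.Nonempty := by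
    rw [← card_pos]
    have : (0 : ℝ) < #S0 := lt_of_lt_of_le hcpos hS0
    exact_mod_cast this
  have hS0mem : ∀ z ∈ S0, z ∈ Ps ∧ ¬ Inc z l₀ ∧ (∃ l ∈ Ls, Inc t₁ l ∧ Inc z l) ∧
      (∃ l ∈ Ls, Inc t₂ l ∧ Inc z l) ∧ (∃ l ∈ Ls, Inc t₃ l ∧ Inc z l) := by
    intro z hz
    simp only [hS0def, mem_inter, nbrs, mem_filter] at hz
    exact ⟨hz.1.1.1, hz.1.1.2.1, hz.1.1.2.2, hz.1.2.2.2, hz.2.2.2⟩
  have hlight : ∀ p ∈ Ps, (#(L.filter (Inc p)) : ℝ) ≤ D₀ := by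
    intro p hp
    have := (mem_filter.1 (hPs hp)).2
    exact (not_le.1 this).le
  have hlightS : ∀ z ∈ S0, (#(Ls.filter (Inc z)) : ℝ) ≤ D₀ := by
    intro z hz
    refine le_trans ?_ (hlight z (hS0mem z hz).1)
    exact_mod_cast card_le_card (filter_subset_filter _ hLs)
  obtain ⟨z₀, hz₀, hS1⟩ := exists_z0 hU S0 Ls r D₀ hS0ne ⟨l₀, hl₀⟩
    (fun z hz => hdp z (hS0mem z hz).1) hlightS
  have hLsc : (#Ls : ℝ) ≤ n := by rw [hndef]; exact_mod_cast card_le_card hLs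
  have hLspos : (0 : ℝ) < #Ls := by exact_mod_cast card_pos.2 ⟨l₀, hl₀⟩
  have hnpos : 0 < n := lt_of_lt_of_le hLspos hLsc
  set S₁ := S0.filter fun z => z ≠ z₀ ∧ ∃ l ∈ Ls, Inc z l ∧ Inc z₀ l with hS₁
  have hzz := hS0mem z₀ hz₀
  have mono : ∀ {a : α} {b : α}, (∃ l ∈ Ls, Inc a l ∧ Inc b l) → ∃ l ∈ L, Inc a l ∧ Inc b l := by
    rintro a b ⟨l, hl, h⟩
    exact ⟨l, hLs hl, h⟩
  refine ⟨l₀, t₁, t₂, t₃, z₀, S₁, (hTP t₁ ht₁).2, (hTP t₂ ht₂).2, (hTP t₃ ht₃).2, h12, h13, h23,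
    hlight t₁ (hTP t₁ ht₁).1, hlight t₂ (hTP t₂ ht₂).1, hlight t₃ (hTP t₃ ht₃).1, hlight z₀ hzz.1,
    hzz.2.1, mono hzz.2.2.1, mono hzz.2.2.2.1, ?_, ?_⟩
  · intro z hz
    obtain ⟨hz1, _, hz2⟩ := mem_filter.1 hz
    have h := hS0mem z hz1
    exact ⟨h.2.1, mono h.2.2.1, mono h.2.2.2.1, mono h.2.2.2.2, mono hz2⟩
  · refine le_trans ?_ hS1
    have h5 : (w ^ 3 / q ^ 2 - 3 * q / r) * r ^ 2 / n ≤ (#S0 : ℝ) * r ^ 2 / #Ls := by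
      calc (w ^ 3 / q ^ 2 - 3 * q / r) * r ^ 2 / n ≤ (#S0 : ℝ) * r ^ 2 / n := by gcongr
        _ ≤ (#S0 : ℝ) * r ^ 2 / #Ls := by gcongr
    linarith

end Crest.Agent.Lib.NearBaer.GeomComb
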