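import Crest.Agent.Lib.NearBaer.Tau
import Crest.Agent.Lib.NearBaer.BSG

/-!
# From a grid with few sums and few ratios to a subfield (row 34, Theorem IT).

Two applications of the Balog-Szemerédi-Gowers path lemma, the Ruzsa triangle inequality and the
sum-product core `sp_main`.
-/

open Finset
open scoped Pointwise

namespace Crest.Agent.Lib.NearBaer

variable {F : Type*} [Field F] [DecidableEq F]

/-- Ruzsa triangle inequality for quotients in a field, with nonzero sets. -/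
lemma card_div_mul_card_le (X Y : Finset F) (hX : (0 : F) ∉ X) (hY : (0 : F) ∉ Y) :
    (X / X).card * Y.card ≤ (Y / X).card * (Y / X).card := by
  classical
  have hrep : ∀ r ∈ X / X, ∃ x ∈ X, ∃ x' ∈ X, x / x' = r := fun r hr => by
    obtain ⟨x, hx, x', hx', rfl⟩ := mem_div.mp hr
    exact ⟨x, hx, x', hx', rfl⟩
  choose! xr hxr xr' hxr' hr using hrep
  rw [← card_product, ← card_product]
  refine card_le_card_of_injOn (fun p => (p.2 / xr p.1, p.2 / xr' p.1)) ?_ ?_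
  · intro p hp
    have hp' := mem_product.mp (mem_coe.mp hp)
    exact mem_coe.mpr (mem_product.mpr ⟨div_mem_div hp'.2 (hxr _ hp'.1),
      div_mem_div hp'.2 (hxr' _ hp'.1)⟩)
  · intro p hp p' hp' h
    have hp1 := mem_product.mp (mem_coe.mp hp)
    have hp2 := mem_product.mp (mem_coe.mp hp')
    have h' : p.2 / xr p.1 = p'.2 / xr p'.1 ∧ p.2 / xr' p.1 = p'.2 / xr' p'.1 := by
      simpa [Prod.ext_iff] using h
    obtain ⟨e1, e2⟩ := h'
    have hne : ∀ {z : F}, z ∈ X → z ≠ 0 := fun hz h0 => hX (h0 ▸ hz)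
    have hne' : ∀ {z : F}, z ∈ Y → z ≠ 0 := fun hz h0 => hY (h0 ▸ hz)
    have h1 := hne (hxr _ hp1.1)
    have h2 := hne (hxr' _ hp1.1)
    have h3 := hne (hxr _ hp2.1)
    have h4 := hne (hxr' _ hp2.1)
    have h5 := hne' hp1.2
    have h6 := hne' hp2.2
    have hrr : p.1 = p'.1 := by
      rw [← hr _ hp1.1, ← hr _ hp2.1]
      have e3 : (p.2 / xr' p.1) / (p.2 / xr p.1) = (p'.2 / xr' p'.1) / (p'.2 / xr p'.1) := by
        rw [e1, e2]
      have e4 : (p.2 / xr' p.1) / (p.2 / xr p.1) = xr p.1 / xr' p.1 := by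
        field_simp
      have e5 : (p'.2 / xr' p'.1) / (p'.2 / xr p'.1) = xr p'.1 / xr' p'.1 := by
        field_simp
      rw [← e4, ← e5, e3]
    have hyy : p.2 = p'.2 := by
      rw [← hrr] at e1
      field_simp at e1
      exact e1
    exact Prod.ext hrr hyy

/-- The constant of the sum-product step as a function of the density parameter. -/
noncomputable def gridM1 : ℝ := 384 * 864 * 12288 ^ 2 * 24 ^ 12

/-- The total loss. -/
noncomputable def gridC : ℝ := 1728 * 2 ^ 41 * gridM1 ^ 268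

lemma gridM1_pos : 0 < gridM1 := by unfold gridM1; positivity

lemma gridC_pos : 0 < gridC := by
  have := gridM1_pos
  unfold gridC; positivity

lemma one_le_gridC : 1 ≤ gridC := by
  have h1 : (1 : ℝ) ≤ gridM1 := by unfold gridM1; norm_num
  have h2 : (1 : ℝ) ≤ gridM1 ^ 268 := one_le_pow₀ h1
  have h3 : (1 : ℝ) ≤ 1728 * 2 ^ 41 := by norm_num
  unfold gridC
  nlinarith

/-- The grid theorem. -/
theorem grid_sp [Fintype F] {N Kg : ℝ} {A B C Λ : Finset F} {G : Finset (F × F)} {a0 b0 : F}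
    (hKg : 1 ≤ Kg) (hN : 0 < N)
    (cardA : (A.card : ℝ) ≤ N) (cardB : (B.card : ℝ) ≤ N) (cardC : (C.card : ℝ) ≤ N)
    (cardΛ : (Λ.card : ℝ) ≤ N) (sub : G ⊆ A ×ˢ B) (a0A : a0 ∉ A) (b0B : b0 ∉ B)
    (hsum : ∀ p ∈ G, p.1 + p.2 ∈ C) (hratio : ∀ p ∈ G, (p.2 - b0) / (p.1 - a0) ∈ Λ)
    (many : N ^ 2 ≤ Kg * G.card) (hlarge : 3456 * Kg ^ 4 ≤ N)
    (hq : (Fintype.card F : ℝ) < (N / (1728 * Kg ^ 4)) ^ 4) :
    N ≤ gridC * Kg ^ 9116 ∨ (Fintype.card F : ℝ) ≤ gridC * Kg ^ 9116 * N ∨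
      ∃ S : Subfield F, S ≠ ⊤ ∧ N ≤ gridC * Kg ^ 9116 * Nat.card S := by
  classical
  have hKgpos : 0 < Kg := by linarith
  let R : F → F → Prop := fun a b => (a, b) ∈ G
  have hedges : (A ×ˢ B).filter (fun p => R p.1 p.2) = G := by
    ext p
    simp only [mem_filter, R]
    exact ⟨fun h => h.2, fun h => ⟨sub h, h⟩⟩
  have hGle : (G.card : ℝ) ≤ (A.card : ℝ) * B.card := by
    have := card_le_card sub
    rw [card_product] at this
    exact_mod_cast this
  set a := (A.card : ℝ) with ha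
  set b := (B.card : ℝ) with hb
  have ha0 : 0 ≤ a := by positivity
  have hb0 : 0 ≤ b := by positivity
  have hab : N ^ 2 ≤ Kg * (a * b) := by
    calc _ ≤ Kg * G.card := many
      _ ≤ _ := by gcongr
  have hNa : N ≤ Kg * a := by
    have h1 : N ^ 2 ≤ (Kg * a) * N := by
      calc _ ≤ Kg * (a * b) := hab
        _ = (Kg * a) * b := by ring
        _ ≤ _ := by gcongr
    have h2 : N * N ≤ (Kg * a) * N := by nlinarith
    exact le_of_mul_le_mul_right h2 hN
  have hNb : N ≤ Kg * b := by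
    have h1 : N ^ 2 ≤ (Kg * b) * N := by
      calc _ ≤ Kg * (a * b) := hab
        _ = (Kg * b) * a := by ring
        _ ≤ _ := by gcongr
    have h2 : N * N ≤ (Kg * b) * N := by nlinarith
    exact le_of_mul_le_mul_right h2 hN
  have hapos : 0 < a := by
    by_contra h
    have : a = 0 := le_antisymm (not_lt.mp h) ha0
    rw [this] at hNa
    simp at hNa
    linarith
  have hbpos : 0 < b := by
    by_contra h
    have : b = 0 := le_antisymm (not_lt.mp h) hb0
    rw [this] at hNb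
    simp at hNb
    linarith
  have hAne : A.Nonempty := card_pos.mp (Nat.cast_pos.mp hapos)
  have hBne : B.Nonempty := card_pos.mp (Nat.cast_pos.mp hbpos)
  have hdense : a * b ≤ Kg * ((A ×ˢ B).filter (fun p => R p.1 p.2)).card := by
    rw [hedges]
    have h1 : a * b ≤ N ^ 2 := by
      have : a * b ≤ N * N := mul_le_mul cardA cardB hb0 hN.le
      nlinarith
    exact h1.trans many
  obtain ⟨A1, hA1, B1, hB1, hA1c, hB1c, hE1, hP1⟩ := bsg_paths A B R hKg hAne hBne hdense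
  -- the sums
  have hRmem : ∀ {x y : F}, R x y → (x, y) ∈ G := fun h => h
  have hRA : ∀ {x y : F}, R x y → x ∈ A ∧ y ∈ B := fun h => mem_product.mp (sub h)
  have hne_a : ∀ {x : F}, x ∈ A → x - a0 ≠ 0 := fun hx h => a0A (sub_eq_zero.mp h ▸ hx)
  have hne_b : ∀ {x : F}, x ∈ B → x - b0 ≠ 0 := fun hx h => b0B (sub_eq_zero.mp h ▸ hx)
  set P1 : ℝ := a * b / (12288 * Kg ^ 5) with hP1def
  have hP1' : ∀ a' ∈ A1, ∀ b' ∈ B1, P1 ≤
      ((B ×ˢ A).filter (fun p => R a' p.1 ∧ R p.2 p.1 ∧ R p.2 b')).card := by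
    intro a' ha' b' hb'
    rw [hP1def, div_le_iff₀ (by positivity)]
    have := hP1 a' ha' b' hb'
    linarith
  have hS1 := image_card_mul_paths_le A B R (fun x y => x + y) C
    (fun x _ y _ h => hsum (x, y) (hRmem h)) (fun x y => x + y) (fun u v w => u - v + w)
    A1 B1 hA1 hB1 (fun a' _ b' _ b1 _ a1 _ _ _ _ => by ring)
    (fun a' _ b' _ b1 _ a1 _ b2 _ a2 _ _ _ _ _ _ _ e1 e2 =>
      ⟨add_left_cancel e1, add_right_cancel e2⟩) hP1'
  set I1 := ((A1 ×ˢ B1).image (fun p => p.1 + p.2)) with hI1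
  have hI1bound : (I1.card : ℝ) ≤ 12288 * Kg ^ 6 * N := by
    have h1 : (I1.card : ℝ) * (a * b) ≤ 12288 * Kg ^ 5 * N ^ 3 := by
      have h2 : (I1.card : ℝ) * P1 ≤ N ^ 3 :=
        hS1.trans (pow_le_pow_left₀ (by positivity) cardC 3)
      have h3 : (I1.card : ℝ) * (a * b) = (12288 * Kg ^ 5) * ((I1.card : ℝ) * P1) := by
        rw [hP1def]; field_simp
      rw [h3]
      gcongr
    have h4 : (I1.card : ℝ) * N ^ 2 ≤ 12288 * Kg ^ 6 * N * N ^ 2 := by
      calc (I1.card : ℝ) * N ^ 2 ≤ (I1.card : ℝ) * (Kg * (a * b)) := by gcongr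
        _ = Kg * ((I1.card : ℝ) * (a * b)) := by ring
        _ ≤ Kg * (12288 * Kg ^ 5 * N ^ 3) := by gcongr
        _ = _ := by ring
    exact le_of_mul_le_mul_right h4 (by positivity)
  -- second application
  set a1 := (A1.card : ℝ) with ha1
  set b1 := (B1.card : ℝ) with hb1
  have ha1le : a1 ≤ a := by rw [ha1, ha]; exact_mod_cast card_le_card hA1
  have hb1le : b1 ≤ b := by rw [hb1, hb]; exact_mod_cast card_le_card hB1
  have ha1pos : 0 < a1 := by
    by_contra h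
    have h0 : a1 = 0 := le_antisymm (not_lt.mp h) (by positivity)
    rw [h0] at hA1c
    linarith
  have hb1pos : 0 < b1 := by
    by_contra h
    have h0 : b1 = 0 := le_antisymm (not_lt.mp h) (by positivity)
    rw [h0] at hB1c
    linarith
  have hA1ne : A1.Nonempty := card_pos.mp (Nat.cast_pos.mp ha1pos)
  have hB1ne : B1.Nonempty := card_pos.mp (Nat.cast_pos.mp hb1pos)
  have hK2 : (1 : ℝ) ≤ 24 * Kg ^ 2 := by
    have : (1 : ℝ) ≤ Kg ^ 2 := one_le_pow₀ hKg
    linarith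
  have hdense2 : a1 * b1 ≤ (24 * Kg ^ 2) * ((A1 ×ˢ B1).filter (fun p => R p.1 p.2)).card := by
    refine le_trans ?_ hE1
    exact mul_le_mul ha1le hb1le (by positivity) ha0
  obtain ⟨A2, hA2, B2, hB2, hA2c, hB2c, -, hP2⟩ := bsg_paths A1 B1 R hK2 hA1ne hB1ne hdense2
  set P2 : ℝ := a1 * b1 / (12288 * (24 * Kg ^ 2) ^ 5) with hP2def
  have hP2' : ∀ a' ∈ A2, ∀ b' ∈ B2, P2 ≤
      ((B1 ×ˢ A1).filter (fun p => R a' p.1 ∧ R p.2 p.1 ∧ R p.2 b')).card := by
    intro a' ha' b' hb'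
    rw [hP2def, div_le_iff₀ (by positivity)]
    have := hP2 a' ha' b' hb'
    linarith
  have hS2 := image_card_mul_paths_le A1 B1 R (fun x y => (y - b0) / (x - a0)) Λ
    (fun x _ y _ h => hratio (x, y) (hRmem h)) (fun x y => (y - b0) / (x - a0))
    (fun u v w => u * v⁻¹ * w) A2 B2 hA2 hB2
    (fun a' ha' b' hb' b1 hb1 a1 ha1 _ _ _ => by
      have h1 := hne_a (hA1 (hA2 ha'))
      have h2 := hne_a (hA1 ha1)
      have h3 := hne_b (hB1 hb1)
      have h4 := hne_b (hB1 (hB2 hb'))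
      field_simp)
    (fun a' ha' b' hb' b1 hb1 a1 ha1 b2 hb2 a2 ha2 _ _ _ _ _ _ e1 e2 => by
      have h1 := hne_a (hA1 (hA2 ha'))
      have h2 := hne_a (hA1 ha1)
      have h3 := hne_a (hA1 ha2)
      have h4 := hne_b (hB1 (hB2 hb'))
      have e1' := (div_left_inj' h1).mp e1
      have e2' : a1 - a0 = a2 - a0 := by
        field_simp at e2
        exact e2.symm
      exact ⟨sub_left_injective e1', sub_left_injective e2'⟩) hP2'
  set I2 := ((A2 ×ˢ B2).image (fun p => (p.2 - b0) / (p.1 - a0))) with hI2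
  have hab1 : a * b ≤ 24 * Kg ^ 2 * (a1 * b1) := by
    have : a * b ≤ (6 * Kg * a1) * (4 * Kg * b1) := mul_le_mul hA1c hB1c hb0 (by positivity)
    calc _ ≤ _ := this
      _ = _ := by ring
  have hI2bound : (I2.card : ℝ) ≤ 12288 * 24 ^ 6 * Kg ^ 13 * N := by
    have h1 : (I2.card : ℝ) * (a1 * b1) ≤ 12288 * (24 * Kg ^ 2) ^ 5 * N ^ 3 := by
      have h2 : (I2.card : ℝ) * P2 ≤ N ^ 3 :=
        hS2.trans (pow_le_pow_left₀ (by positivity) cardΛ 3)
      have h3 : (I2.card : ℝ) * (a1 * b1) = (12288 * (24 * Kg ^ 2) ^ 5) * ((I2.card : ℝ) * P2) := by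
        rw [hP2def]; field_simp
      rw [h3]
      gcongr
    have h4 : (I2.card : ℝ) * N ^ 2 ≤ 12288 * 24 ^ 6 * Kg ^ 13 * N * N ^ 2 := by
      calc (I2.card : ℝ) * N ^ 2 ≤ (I2.card : ℝ) * (Kg * (24 * Kg ^ 2 * (a1 * b1))) := by
            gcongr
            exact hab.trans (by gcongr)
        _ = (24 * Kg ^ 3) * ((I2.card : ℝ) * (a1 * b1)) := by ring
        _ ≤ (24 * Kg ^ 3) * (12288 * (24 * Kg ^ 2) ^ 5 * N ^ 3) := by gcongr
        _ = _ := by ring
    exact le_of_mul_le_mul_right h4 (by positivity)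
  -- the set `X`
  set u := (A2.card : ℝ) with hu
  set v := (B2.card : ℝ) with hv
  have hNu : N ≤ 864 * Kg ^ 4 * u := by
    have h1 : N ≤ Kg * (6 * Kg * (6 * (24 * Kg ^ 2) * u)) := by
      refine hNa.trans ?_
      gcongr
      refine hA1c.trans ?_
      gcongr
    calc _ ≤ _ := h1
      _ = _ := by ring
  have hNv : N ≤ 384 * Kg ^ 4 * v := by
    have h1 : N ≤ Kg * (4 * Kg * (4 * (24 * Kg ^ 2) * v)) := by
      refine hNb.trans ?_
      gcongr
      refine hB1c.trans ?_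
      gcongr
    calc _ ≤ _ := h1
      _ = _ := by ring
  set X := A2.image (fun x => x - a0) with hX
  set Y := B2.image (fun x => x - b0) with hY
  have hXcard : X.card = A2.card := card_image_of_injective _ (sub_left_injective)
  have hYcard : Y.card = B2.card := card_image_of_injective _ (sub_left_injective)
  have hX0 : (0 : F) ∉ X := by
    intro h
    obtain ⟨x, hx, e⟩ := mem_image.mp h
    exact hne_a (hA1 (hA2 hx)) e
  have hY0 : (0 : F) ∉ Y := by
    intro h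
    obtain ⟨x, hx, e⟩ := mem_image.mp h
    exact hne_b (hB1 (hB2 hx)) e
  -- sums
  have hXX : (X + X).card = (A2 + A2).card := by
    have : X + X = (A2 + A2).image (fun x => x - (a0 + a0)) := by
      ext z
      simp only [mem_add, mem_image, hX]
      constructor
      · rintro ⟨_, ⟨x, hx, rfl⟩, _, ⟨y, hy, rfl⟩, rfl⟩
        exact ⟨x + y, ⟨x, hx, y, hy, rfl⟩, by ring⟩
      · rintro ⟨_, ⟨x, hx, y, hy, rfl⟩, rfl⟩
        exact ⟨x - a0, ⟨x, hx, rfl⟩, y - a0, ⟨y, hy, rfl⟩, by ring⟩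
    rw [this]
    exact card_image_of_injective _ (sub_left_injective)
  have hAB : ((A2 + B2).card : ℝ) ≤ 12288 * Kg ^ 6 * N := by
    refine le_trans ?_ hI1bound
    refine Nat.cast_le.mpr (card_le_card ?_)
    intro z hz
    obtain ⟨x, hx, y, hy, rfl⟩ := mem_add.mp hz
    exact mem_image.mpr ⟨(x, y), mem_product.mpr ⟨hA2 hx, hB2 hy⟩, rfl⟩
  have hruz := ruzsa_triangle_inequality_add_add_add A2 B2 A2
  rw [add_comm B2 A2] at hruz
  have hruz' : ((A2 + A2).card : ℝ) * v ≤ ((A2 + B2).card : ℝ) * (A2 + B2).card := by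
    rw [hv]; exact_mod_cast hruz
  have hXXbound : ((X + X).card : ℝ) ≤ 384 * 864 * 12288 ^ 2 * Kg ^ 20 * u := by
    rw [hXX]
    have h1 : ((A2 + A2).card : ℝ) * N ≤ 384 * 12288 ^ 2 * Kg ^ 16 * N * N := by
      calc ((A2 + A2).card : ℝ) * N ≤ ((A2 + A2).card : ℝ) * (384 * Kg ^ 4 * v) := by gcongr
        _ = 384 * Kg ^ 4 * (((A2 + A2).card : ℝ) * v) := by ring
        _ ≤ 384 * Kg ^ 4 * (((A2 + B2).card : ℝ) * (A2 + B2).card) := by gcongr
        _ ≤ 384 * Kg ^ 4 * ((12288 * Kg ^ 6 * N) * (12288 * Kg ^ 6 * N)) := by gcongr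
        _ = _ := by ring
    have h2 := le_of_mul_le_mul_right h1 hN
    calc _ ≤ _ := h2
      _ ≤ 384 * 12288 ^ 2 * Kg ^ 16 * (864 * Kg ^ 4 * u) := by gcongr
      _ = _ := by ring
  -- quotients
  have hYX : ((Y / X).card : ℝ) ≤ 12288 * 24 ^ 6 * Kg ^ 13 * N := by
    refine le_trans ?_ hI2bound
    refine Nat.cast_le.mpr (card_le_card ?_)
    intro z hz
    obtain ⟨y', hy', x', hx', rfl⟩ := mem_div.mp hz
    obtain ⟨y, hy, rfl⟩ := mem_image.mp hy'
    obtain ⟨x, hx, rfl⟩ := mem_image.mp hx'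
    exact mem_image.mpr ⟨(x, y), mem_product.mpr ⟨hx, hy⟩, rfl⟩
  have hruz2 : ((X / X).card : ℝ) * v ≤ ((Y / X).card : ℝ) * (Y / X).card := by
    have := card_div_mul_card_le X Y hX0 hY0
    rw [hYcard] at this
    rw [hv]; exact_mod_cast this
  have hXdbound : ((X / X).card : ℝ) ≤ gridM1 * Kg ^ 34 * u := by
    have h1 : ((X / X).card : ℝ) * N ≤ 384 * (12288 * 24 ^ 6) ^ 2 * Kg ^ 30 * N * N := by
      calc ((X / X).card : ℝ) * N ≤ ((X / X).card : ℝ) * (384 * Kg ^ 4 * v) := by gcongr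
        _ = 384 * Kg ^ 4 * (((X / X).card : ℝ) * v) := by ring
        _ ≤ 384 * Kg ^ 4 * (((Y / X).card : ℝ) * (Y / X).card) := by gcongr
        _ ≤ 384 * Kg ^ 4 * ((12288 * 24 ^ 6 * Kg ^ 13 * N) * (12288 * 24 ^ 6 * Kg ^ 13 * N)) := by
            gcongr
        _ = _ := by ring
    have h2 := le_of_mul_le_mul_right h1 hN
    calc _ ≤ _ := h2
      _ ≤ 384 * (12288 * 24 ^ 6) ^ 2 * Kg ^ 30 * (864 * Kg ^ 4 * u) := by gcongr
      _ = _ := by unfold gridM1; ring
  set M : ℝ := gridM1 * Kg ^ 34 with hM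
  have hXXbound' : ((X + X).card : ℝ) ≤ M * X.card := by
    rw [hXcard]
    refine hXXbound.trans ?_
    have hu0 : 0 ≤ u := by positivity
    have h1 : (384 * 864 * 12288 ^ 2 : ℝ) ≤ gridM1 := by
      unfold gridM1
      have : (1 : ℝ) ≤ 24 ^ 12 := by norm_num
      nlinarith
    have h2 : Kg ^ 20 ≤ Kg ^ 34 := pow_le_pow_right₀ hKg (by norm_num)
    rw [hM]
    gcongr
  have hXdbound' : ((X / X).card : ℝ) ≤ M * X.card := by
    rw [hXcard]; exact hXdbound
  have hKg4 : (1 : ℝ) ≤ Kg ^ 4 := one_le_pow₀ hKg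
  have h4u : 4 ≤ X.card := by
    rw [hXcard]
    have h1 : 4 * (864 * Kg ^ 4) ≤ u * (864 * Kg ^ 4) := by nlinarith
    have h2 : (4 : ℝ) ≤ u := le_of_mul_le_mul_right h1 (by positivity)
    rw [hu] at h2
    exact_mod_cast h2
  have hNu2 : N / (1728 * Kg ^ 4) ≤ u / 2 := by
    rw [div_le_iff₀ (by positivity)]
    have : u / 2 * (1728 * Kg ^ 4) = 864 * Kg ^ 4 * u := by ring
    rw [this]; exact hNu
  have hqX : (Fintype.card F : ℝ) < ((X.card : ℝ) / 2) ^ 4 := by
    rw [hXcard]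
    exact hq.trans_le (pow_le_pow_left₀ (by positivity) hNu2 4)
  have hule : u ≤ N := by
    have h1 : u ≤ a1 := by rw [hu, ha1]; exact_mod_cast card_le_card hA2
    linarith
  have hMpos : 0 < M := by
    rw [hM]
    have := gridM1_pos
    positivity
  have hWeq : gridC * Kg ^ 9116 = 1728 * Kg ^ 4 * (2 ^ 41 * M ^ 268) := by
    rw [hM]
    unfold gridC
    ring
  have hWge : 2 ^ 41 * M ^ 268 ≤ 1728 * Kg ^ 4 * (2 ^ 41 * M ^ 268) := by
    have : 0 < 2 ^ 41 * M ^ 268 := by positivity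
    nlinarith
  rw [hWeq]
  rcases sp_main hX0 hXXbound' hXdbound' h4u hqX with hmin | ⟨S, hS, hScard⟩
  · rw [hXcard] at hmin
    rcases min_le_iff.mp hmin with h | h
    · left
      have hupos : 0 < u := by
        have : (0:ℝ) < 864 * Kg ^ 4 * u := lt_of_lt_of_le hN hNu
        by_contra hc
        have h0 : u = 0 := le_antisymm (not_lt.mp hc) (by positivity)
        rw [h0] at this
        simp at this
      have h1 : u ≤ 2 ^ 41 * M ^ 268 := by
        have h2 : u * u ≤ (2 ^ 41 * M ^ 268) * u := by nlinarith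
        exact le_of_mul_le_mul_right h2 hupos
      calc N ≤ 864 * Kg ^ 4 * u := hNu
        _ ≤ 864 * Kg ^ 4 * (2 ^ 41 * M ^ 268) := by gcongr
        _ ≤ _ := by gcongr; norm_num
    · right; left
      calc (Fintype.card F : ℝ) ≤ 2 ^ 41 * M ^ 268 * u := h
        _ ≤ 2 ^ 41 * M ^ 268 * N := by gcongr
        _ ≤ _ := by gcongr
  · right; right
    refine ⟨S, hS, ?_⟩
    rw [hXcard] at hScard
    have h1 : (1 : ℝ) ≤ 2 ^ 41 * M ^ 268 := by
      have hM1 : 1 ≤ M := by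
        rw [hM]
        have h1 : (1 : ℝ) ≤ gridM1 := by unfold gridM1; norm_num
        have h2 : (1 : ℝ) ≤ Kg ^ 34 := one_le_pow₀ hKg
        nlinarith
      have : (1 : ℝ) ≤ M ^ 268 := one_le_pow₀ hM1
      have h3 : (1:ℝ) ≤ 2 ^ 41 := by norm_num
      nlinarith
    have hS0 : (0 : ℝ) ≤ Nat.card S := by positivity
    calc N ≤ 864 * Kg ^ 4 * u := hNu
      _ = 1728 * Kg ^ 4 * (u / 2) := by ring
      _ ≤ 1728 * Kg ^ 4 * Nat.card S := by gcongr
      _ = 1728 * Kg ^ 4 * (1 * Nat.card S) := by ring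
      _ ≤ 1728 * Kg ^ 4 * ((2 ^ 41 * M ^ 268) * Nat.card S) := by gcongr
      _ = _ := by ring

end Crest.Agent.Lib.NearBaer
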