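import Crest.Agent.Lib.NearBaer.Geom
import Crest.Agent.Lib.NearBaer.Grid

/-!
# Theorem IT (row 34): about `q` lines with about `√q` points of a `q`-set force a subfield.
-/

open Finset

namespace Crest.Agent.Lib.NearBaer

theorem incidence_or_subfield : ∃ (C E : ℝ), 1 ≤ C ∧ 1 ≤ E ∧
    ∀ (F : Type) [Field F] [Fintype F] [DecidableEq F]
    (K : ℝ) (X : ℕ) (P L : Finset (F × F)), 1 ≤ K → (P.card : ℝ) ≤ Fintype.card F →
    (∀ l ∈ L, X ≤ (P.filter (fun p => p.2 = l.1 * p.1 + l.2)).card) →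
    (Fintype.card F : ℝ) ^ 2 ≤ K * L.card * X ^ 2 → (X : ℝ) ^ 2 ≤ 4 * Fintype.card F →
    Real.sqrt (Fintype.card F) ≤ K * X →
    Real.sqrt (Fintype.card F) ≤ C * K ^ E ∨
      ∃ T : Subfield F, T ≠ ⊤ ∧ Real.sqrt (Fintype.card F) ≤ C * K ^ E * Nat.card T := by
  obtain ⟨C0, E0, hC0, hE0, hgeom⟩ := geom_to_grid
  have hC0pos : 0 < C0 := by linarith
  have hG := gridC_pos
  set C1 : ℝ := C0 + 3456 * C0 ^ 4 + 1728 ^ 2 * C0 ^ 8 + 3 * gridC * C0 ^ 9116 with hC1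
  have hC1ge : 1 ≤ C1 := by
    have h1 : 0 < 3456 * C0 ^ 4 := by positivity
    have h2 : 0 < 1728 ^ 2 * C0 ^ 8 := by positivity
    have h3 : 0 < 3 * gridC * C0 ^ 9116 := by positivity
    linarith
  refine ⟨C1, 9116 * E0 + 1, hC1ge, by linarith, ?_⟩
  intro F _ _ _ K X P L hK hP hdeg hmany hXq hXlarge
  have hKpos : 0 < K := by linarith
  set s := Real.sqrt (Fintype.card F) with hs
  have hq1 : (1 : ℝ) ≤ Fintype.card F := by
    exact_mod_cast Fintype.card_pos (α := F)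
  have hs1 : 1 ≤ s := by
    rw [hs]; exact Real.one_le_sqrt.mpr hq1
  have hspos : 0 < s := by linarith
  have hss : s ^ 2 = Fintype.card F := Real.sq_sqrt (by positivity)
  set Lp : ℝ := K ^ E0 with hLp
  have hLp1 : 1 ≤ Lp := Real.one_le_rpow hK (by linarith)
  have hLppos : 0 < Lp := by linarith
  have hpowK : K ^ (9116 * E0 + 1) = Lp ^ 9116 * K := by
    rw [Real.rpow_add hKpos, Real.rpow_one, hLp, ← Real.rpow_natCast, ← Real.rpow_mul hKpos.le]
    congr 2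
    norm_num
    ring
  set Kg : ℝ := C0 * Lp with hKg
  have hKg1 : 1 ≤ Kg := by nlinarith
  have hKgpos : 0 < Kg := by linarith
  set W : ℝ := Lp ^ 9116 * K with hW
  have hLpW : ∀ n : ℕ, n ≤ 9116 → Lp ^ n ≤ W := by
    intro n hn
    have h1 : Lp ^ n ≤ Lp ^ 9116 := pow_le_pow_right₀ hLp1 hn
    have h2 : Lp ^ 9116 ≤ Lp ^ 9116 * K := by
      have : 0 < Lp ^ 9116 := by positivity
      nlinarith
    exact h1.trans h2
  have hWpos : 0 < W := by positivity
  have hZ : C1 * K ^ (9116 * E0 + 1) =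
      C0 * W + 3456 * C0 ^ 4 * W + 1728 ^ 2 * C0 ^ 8 * W + 3 * gridC * C0 ^ 9116 * W := by
    rw [hpowK, hC1]; ring
  have ht1 : 0 < C0 * W := by positivity
  have ht2 : 0 < 3456 * C0 ^ 4 * W := by positivity
  have ht3 : 0 < 1728 ^ 2 * C0 ^ 8 * W := by positivity
  have ht4 : 0 < 3 * gridC * C0 ^ 9116 * W := by positivity
  rcases hgeom F K X P L hK hP hdeg hmany hXq hXlarge with h | ⟨A, B, C', Λ, G, a0, b0, hd⟩
  · left
    have h1 : C0 * K ^ E0 ≤ C0 * W := by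
      gcongr
      have := hLpW 1 (by norm_num)
      simpa using this
    rw [hZ]
    linarith
  set N : ℝ := 3 * K * s with hN
  have hNs : s ≤ N := by
    rw [hN]
    nlinarith
  have hNpos : 0 < N := by linarith
  have hKg4 : Kg ^ 4 = C0 ^ 4 * Lp ^ 4 := by rw [hKg]; ring
  by_cases hlarge : 3456 * Kg ^ 4 ≤ N
  swap
  · left
    have h1 : s ≤ 3456 * Kg ^ 4 := hNs.trans (not_le.mp hlarge).le
    have h2 : 3456 * Kg ^ 4 ≤ 3456 * C0 ^ 4 * W := by
      rw [hKg4]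
      have := hLpW 4 (by norm_num)
      calc 3456 * (C0 ^ 4 * Lp ^ 4) = 3456 * C0 ^ 4 * Lp ^ 4 := by ring
        _ ≤ _ := by gcongr
    rw [hZ]
    linarith
  by_cases hq : (Fintype.card F : ℝ) < (N / (1728 * Kg ^ 4)) ^ 4
  swap
  · left
    have hq' : (N / (1728 * Kg ^ 4)) ^ 4 ≤ s ^ 2 := by rw [hss]; exact not_lt.mp hq
    set D : ℝ := 1728 * Kg ^ 4 with hD
    have hDpos : 0 < D := by positivity
    have h1 : (s / D) ^ 4 ≤ s ^ 2 := by
      refine le_trans ?_ hq'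
      gcongr
    have h2 : s ^ 2 ≤ D ^ 4 := by
      rw [div_pow, div_le_iff₀ (by positivity)] at h1
      have h3 : s ^ 2 * s ^ 2 ≤ D ^ 4 * s ^ 2 := by nlinarith
      exact le_of_mul_le_mul_right h3 (by positivity)
    have h3 : s ≤ D ^ 2 := by
      have : s ^ 2 ≤ (D ^ 2) ^ 2 := by rw [← pow_mul]; exact h2
      exact (sq_le_sq₀ hspos.le (by positivity)).mp this
    have h4 : D ^ 2 = 1728 ^ 2 * C0 ^ 8 * Lp ^ 8 := by
      rw [hD, hKg]; ring
    have h5 : D ^ 2 ≤ 1728 ^ 2 * C0 ^ 8 * W := by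
      rw [h4]
      have := hLpW 8 (by norm_num)
      gcongr
    rw [hZ]
    linarith
  have hKge : gridC * Kg ^ 9116 = gridC * C0 ^ 9116 * Lp ^ 9116 := by
    rw [hKg]; ring
  have hKgeW : gridC * Kg ^ 9116 * (3 * K) = 3 * gridC * C0 ^ 9116 * W := by
    rw [hKge, hW]; ring
  have hKgele : gridC * Kg ^ 9116 ≤ 3 * gridC * C0 ^ 9116 * W := by
    rw [← hKgeW]
    have : 0 < gridC * Kg ^ 9116 := by positivity
    nlinarith
  rcases grid_sp hKg1 hNpos hd.cardA hd.cardB hd.cardC hd.cardΛ hd.sub hd.a0A hd.b0B hd.sum hd.ratio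
    hd.many hlarge hq with h | h | ⟨S, hS, hSc⟩
  · left
    rw [hZ]
    linarith
  · left
    rw [← hss] at h
    have h1 : s * s ≤ (gridC * Kg ^ 9116 * (3 * K)) * s := by
      calc s * s = s ^ 2 := by ring
        _ ≤ _ := h
        _ = _ := by rw [hN]; ring
    have h2 := le_of_mul_le_mul_right h1 hspos
    rw [hZ]
    rw [hKgeW] at h2
    linarith
  · right
    refine ⟨S, hS, hNs.trans (hSc.trans ?_)⟩
    have h3 : gridC * Kg ^ 9116 ≤ C1 * K ^ (9116 * E0 + 1) := by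
      rw [hZ]
      linarith
    exact mul_le_mul_of_nonneg_right h3 (by positivity)

end Crest.Agent.Lib.NearBaer
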