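import Mathlib

/-!
# The `τ`-calculus of a set with small doubling in a field (row 34, Theorem IT).

`Lvl X K ξ` says `|X + ξ X| ≤ K |X|`.  If `|X+X| ≤ M|X|` the level sets are almost closed under the
field operations.  Together with the `Q`-trick this gives: a set with small sum and small ratio
set either generates a subfield, or `|X + ξ X|` is small for *all* `ξ`, which is impossible.
-/

open scoped Pointwise
open Finset

namespace Crest.Agent.Lib.NearBaer

variable {F : Type*} [Field F] [DecidableEq F]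

/-- Dilation of a finite set. -/
def dil (ξ : F) (X : Finset F) : Finset F := X.image (fun x => ξ * x)

@[simp] lemma mem_dil {ξ y : F} {X : Finset F} : y ∈ dil ξ X ↔ ∃ x ∈ X, ξ * x = y := by
  simp [dil]

lemma card_dil {ξ : F} (hξ : ξ ≠ 0) (X : Finset F) : (dil ξ X).card = X.card :=
  card_image_of_injective _ (mul_right_injective₀ hξ)

lemma dil_one (X : Finset F) : dil 1 X = X := by
  ext y; simp

lemma dil_dil (ξ η : F) (X : Finset F) : dil ξ (dil η X) = dil (ξ * η) X := by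
  ext y
  simp only [mem_dil]
  constructor
  · rintro ⟨_, ⟨x, hx, rfl⟩, rfl⟩; exact ⟨x, hx, by ring⟩
  · rintro ⟨x, hx, rfl⟩; exact ⟨η * x, ⟨x, hx, rfl⟩, by ring⟩

lemma dil_add (ξ : F) (A B : Finset F) : dil ξ (A + B) = dil ξ A + dil ξ B := by
  ext y
  simp only [mem_dil, mem_add]
  constructor
  · rintro ⟨_, ⟨a, ha, b, hb, rfl⟩, rfl⟩
    exact ⟨ξ * a, ⟨a, ha, rfl⟩, ξ * b, ⟨b, hb, rfl⟩, by ring⟩
  · rintro ⟨_, ⟨a, ha, rfl⟩, _, ⟨b, hb, rfl⟩, rfl⟩
    exact ⟨a + b, ⟨a, ha, b, hb, rfl⟩, by ring⟩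

lemma sub_dil (ξ : F) (A B : Finset F) : A - dil ξ B = A + dil (-ξ) B := by
  ext y
  simp only [mem_sub, mem_add, mem_dil]
  constructor
  · rintro ⟨a, ha, _, ⟨b, hb, rfl⟩, rfl⟩
    exact ⟨a, ha, -ξ * b, ⟨b, hb, rfl⟩, by ring⟩
  · rintro ⟨a, ha, _, ⟨b, hb, rfl⟩, rfl⟩
    exact ⟨a, ha, ξ * b, ⟨b, hb, rfl⟩, by ring⟩

/-- The level predicate: `|X + ξ X| ≤ K |X|`. -/
def Lvl (X : Finset F) (K : ℝ) (ξ : F) : Prop :=
  ((X + dil ξ X).card : ℝ) ≤ K * X.card

lemma Lvl.mono {X : Finset F} {K K' : ℝ} {ξ : F} (h : Lvl X K ξ) (hK : K ≤ K') : Lvl X K' ξ := by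
  unfold Lvl at *
  have : (0 : ℝ) ≤ X.card := by positivity
  nlinarith

lemma dil_nonempty {X : Finset F} (hX : X.Nonempty) (ξ : F) : (dil ξ X).Nonempty := by
  simpa [dil] using hX

lemma Lvl.one_le {X : Finset F} (hX : X.Nonempty) {K : ℝ} {ξ : F} (h : Lvl X K ξ) : 1 ≤ K := by
  unfold Lvl at h
  have h1 : X.card ≤ (X + dil ξ X).card := card_le_card_add_right (dil_nonempty hX ξ)
  have h2 : (0 : ℝ) < X.card := by exact_mod_cast hX.card_pos
  have h3 : (X.card : ℝ) ≤ (X + dil ξ X).card := by exact_mod_cast h1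
  by_contra hK
  push Not at hK
  nlinarith

section calculus

variable {X : Finset F} {M : ℝ}

lemma lvl_one (hM : ((X + X).card : ℝ) ≤ M * X.card) : Lvl X M 1 := by
  unfold Lvl; rwa [dil_one]

lemma one_le_M (hX : X.Nonempty) (hM : ((X + X).card : ℝ) ≤ M * X.card) : 1 ≤ M :=
  (lvl_one hM).one_le hX

lemma lvl_zero (hX : X.Nonempty) {K : ℝ} (hK : 1 ≤ K) : Lvl X K 0 := by
  unfold Lvl
  have h0 : dil 0 X = {0} := by
    ext y
    simp only [mem_dil, zero_mul, mem_singleton]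
    constructor
    · rintro ⟨_, _, rfl⟩; rfl
    · rintro rfl; obtain ⟨x, hx⟩ := hX; exact ⟨x, hx, rfl⟩
  have h1 : X + {0} = X := by
    ext y; simp [mem_add]
  rw [h0, h1]
  have : (0 : ℝ) ≤ X.card := by positivity
  nlinarith

lemma lvl_inv {K : ℝ} {ξ : F} (h : Lvl X K ξ) : Lvl X K ξ⁻¹ := by
  by_cases hξ : ξ = 0
  · subst hξ; simpa using h
  unfold Lvl at *
  have h1 : X + dil ξ⁻¹ X = dil ξ⁻¹ (X + dil ξ X) := by
    rw [dil_add, dil_dil, inv_mul_cancel₀ hξ, dil_one, add_comm]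
  rw [h1, card_dil (inv_ne_zero hξ)]
  exact h

lemma lvl_neg (hX : X.Nonempty) (hM : ((X + X).card : ℝ) ≤ M * X.card) {K : ℝ} {ξ : F}
    (h : Lvl X K ξ) : Lvl X (K * M) (-ξ) := by
  have hM1 := one_le_M hX hM
  have hK1 := h.one_le hX
  by_cases hξ : ξ = 0
  · subst hξ; simpa using lvl_zero hX (by nlinarith : 1 ≤ K * M)
  have hpos : (0 : ℝ) < X.card := by exact_mod_cast hX.card_pos
  have key := ruzsa_triangle_inequality_sub_sub_sub X (dil (-ξ) X) (dil ξ X)
  have e1 : X - dil ξ X = X + dil (-ξ) X := sub_dil _ _ _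
  have e2 : X - dil (-ξ) X = X + dil ξ X := by rw [sub_dil, neg_neg]
  have e3 : dil ξ X - dil (-ξ) X = dil ξ (X + X) := by rw [sub_dil, neg_neg, dil_add]
  rw [e1, e2, e3, card_dil (neg_ne_zero.mpr hξ), card_dil hξ] at key
  unfold Lvl at *
  have key' : (((X + dil (-ξ) X).card : ℝ)) * X.card ≤ ((X + dil ξ X).card : ℝ) * (X + X).card := by
    exact_mod_cast key
  have : ((X + dil (-ξ) X).card : ℝ) * X.card ≤ (K * M * X.card) * X.card := by
    calc _ ≤ _ := key'
      _ ≤ (K * X.card) * (M * X.card) := by gcongr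
      _ = _ := by ring
  exact le_of_mul_le_mul_right this hpos

lemma lvl_mul (hX : X.Nonempty) {K K' : ℝ} {ξ η : F} (h : Lvl X K ξ) (h' : Lvl X K' η) :
    Lvl X (K * K') (ξ * η) := by
  have hK1 := h.one_le hX
  have hK2 := h'.one_le hX
  by_cases hξ : ξ = 0
  · subst hξ; simpa using lvl_zero hX (by nlinarith : 1 ≤ K * K')
  have hpos : (0 : ℝ) < X.card := by exact_mod_cast hX.card_pos
  have key := ruzsa_triangle_inequality_add_add_add X (dil ξ X) (dil (ξ * η) X)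
  have e3 : dil ξ X + dil (ξ * η) X = dil ξ (X + dil η X) := by rw [dil_add, dil_dil]
  rw [e3, card_dil hξ, card_dil hξ] at key
  unfold Lvl at *
  have key' : ((X + dil (ξ * η) X).card : ℝ) * X.card
      ≤ ((X + dil ξ X).card : ℝ) * (X + dil η X).card := by
    exact_mod_cast key
  have : ((X + dil (ξ * η) X).card : ℝ) * X.card ≤ (K * K' * X.card) * X.card := by
    calc _ ≤ _ := key'
      _ ≤ (K * X.card) * (K' * X.card) := by gcongr
      _ = _ := by ring
  exact le_of_mul_le_mul_right this hpos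

/-- Plünnecke-Ruzsa for `3X - 2X`, real form. -/
lemma card_three_sub_two (hX : X.Nonempty) (hM : ((X + X).card : ℝ) ≤ M * X.card) :
    (((X + X + X) - (X + X)).card : ℝ) ≤ M ^ 5 * X.card := by
  have hM1 := one_le_M hX hM
  have key := pluennecke_ruzsa_inequality_nsmul_sub_nsmul_add hX X 3 2
  have e : (3 • X - 2 • X) = (X + X + X) - (X + X) := by
    rw [show (3 : ℕ) = 2 + 1 from rfl, succ_nsmul, two_nsmul]
  rw [e] at key
  have hpos : (0 : ℝ) < X.card := by exact_mod_cast hX.card_pos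
  have key2 : ((((X + X + X) - (X + X)).card : ℚ≥0) : ℝ)
      ≤ (((((X + X).card : ℚ≥0) / X.card) ^ (3 + 2) * X.card : ℚ≥0) : ℝ) := by
    exact_mod_cast key
  push_cast at key2
  have hdiv : ((X + X).card : ℝ) / X.card ≤ M := by
    rw [div_le_iff₀ hpos]; exact hM
  calc _ ≤ _ := key2
    _ ≤ M ^ (3 + 2) * X.card := by gcongr
    _ = _ := by norm_num

lemma lvl_add (hX : X.Nonempty) (hM : ((X + X).card : ℝ) ≤ M * X.card) {K K' : ℝ} {ξ η : F}
    (h : Lvl X K ξ) (h' : Lvl X K' η) : Lvl X (M ^ 5 * K * K') (ξ + η) := by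
  have hM1 := one_le_M hX hM
  have hK1 := h.one_le hX
  have hK2 := h'.one_le hX
  have hpos : (0 : ℝ) < X.card := by exact_mod_cast hX.card_pos
  unfold Lvl at *
  obtain ⟨T, -, hT, hTsub⟩ := Finset.ruzsa_covering_add (A := dil ξ X) (B := X) (K := K) hX
    (by rwa [add_comm])
  obtain ⟨T', -, hT', hTsub'⟩ := Finset.ruzsa_covering_add (A := dil η X) (B := X) (K := K') hX
    (by rwa [add_comm])
  set W := (X + X + X) - (X + X) with hW
  have hsub : X + dil (ξ + η) X ⊆ T + T' + W := by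
    intro z hz
    obtain ⟨x, hx, w, hw, rfl⟩ := mem_add.mp hz
    obtain ⟨y, hy, rfl⟩ := mem_dil.mp hw
    have h1 : ξ * y ∈ T + (X - X) := hTsub (mem_dil.mpr ⟨y, hy, rfl⟩)
    have h2 : η * y ∈ T' + (X - X) := hTsub' (mem_dil.mpr ⟨y, hy, rfl⟩)
    obtain ⟨t, ht, _, hs, ht1⟩ := mem_add.mp h1
    obtain ⟨a, ha, b, hb, rfl⟩ := mem_sub.mp hs
    obtain ⟨t', ht', _, hs', ht2⟩ := mem_add.mp h2
    obtain ⟨a', ha', b', hb', rfl⟩ := mem_sub.mp hs'
    refine mem_add.mpr ⟨t + t', add_mem_add ht ht', x + a + a' - (b + b'), ?_, ?_⟩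
    · exact mem_sub.mpr ⟨x + a + a', add_mem_add (add_mem_add hx ha) ha', b + b',
        add_mem_add hb hb', rfl⟩
    · have : (ξ + η) * y = ξ * y + η * y := by ring
      rw [this, ← ht1, ← ht2]; ring
  have hcard : ((X + dil (ξ + η) X).card : ℝ) ≤ T.card * T'.card * W.card := by
    have h1 : (X + dil (ξ + η) X).card ≤ T.card * T'.card * W.card :=
      (card_le_card hsub).trans (card_add_le.trans (Nat.mul_le_mul_right _ card_add_le))
    exact_mod_cast h1
  have hW' := card_three_sub_two hX hM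
  calc _ ≤ _ := hcard
    _ ≤ K * K' * (M ^ 5 * X.card) := by gcongr
    _ = _ := by ring

/-- Main consequence of a big intersection `X ∩ r X`. -/
lemma lvl_of_inter (hX : X.Nonempty) (hM : ((X + X).card : ℝ) ≤ M * X.card) {r : F} (hr : r ≠ 0)
    (hZ : (X.card : ℝ) / (2 * M) ≤ (X ∩ dil r X).card) : Lvl X (2 * M ^ 3) r := by
  have hM1 := one_le_M hX hM
  have hpos : (0 : ℝ) < X.card := by exact_mod_cast hX.card_pos
  have hMpos : (0 : ℝ) < M := by linarith
  have key := ruzsa_triangle_inequality_add_add_add X (X ∩ dil r X) (dil r X)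
  have h1 : (X + X ∩ dil r X).card ≤ (X + X).card :=
    card_le_card (add_subset_add_left inter_subset_left)
  have h2 : (X ∩ dil r X + dil r X).card ≤ (X + X).card := by
    calc _ ≤ (dil r X + dil r X).card := card_le_card (add_subset_add_right inter_subset_right)
      _ = _ := by rw [← dil_add, card_dil hr]
  unfold Lvl
  have key' : ((X + dil r X).card : ℝ) * (X ∩ dil r X).card
      ≤ ((X + X).card : ℝ) * (X + X).card := by
    have : (X + dil r X).card * (X ∩ dil r X).card ≤ (X + X).card * (X + X).card :=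
      key.trans (Nat.mul_le_mul h1 h2)
    exact_mod_cast this
  have h3 : ((X + dil r X).card : ℝ) * ((X.card : ℝ) / (2 * M))
      ≤ (M * X.card) * (M * X.card) := by
    calc _ ≤ ((X + dil r X).card : ℝ) * (X ∩ dil r X).card := by gcongr
      _ ≤ _ := key'
      _ ≤ _ := by gcongr
  have h4 : ((X + dil r X).card : ℝ) * (X.card : ℝ) ≤ (2 * M ^ 3 * X.card) * X.card := by
    have : ((X + dil r X).card : ℝ) * ((X.card : ℝ) / (2 * M)) * (2 * M)
        ≤ (M * X.card) * (M * X.card) * (2 * M) := by gcongr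
    have e : ((X + dil r X).card : ℝ) * ((X.card : ℝ) / (2 * M)) * (2 * M)
        = ((X + dil r X).card : ℝ) * (X.card : ℝ) := by field_simp
    rw [e] at this
    calc _ ≤ _ := this
      _ = _ := by ring
  exact le_of_mul_le_mul_right h4 hpos

end calculus

section Qset

/-- The quotient set `(Y - Y) / (Y - Y)`. -/
def Qset (Y : Finset F) : Finset F :=
  (((Y - Y) ×ˢ (Y - Y)).filter (fun p => p.2 ≠ 0)).image (fun p => p.1 / p.2)

lemma mem_Qset {Y : Finset F} {ξ : F} :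
    ξ ∈ Qset Y ↔ ∃ a ∈ Y, ∃ b ∈ Y, ∃ c ∈ Y, ∃ d ∈ Y, c ≠ d ∧ ξ = (a - b) / (c - d) := by
  simp only [Qset, mem_image, mem_filter, mem_product, mem_sub, Prod.exists]
  constructor
  · rintro ⟨u, v, ⟨⟨⟨a, ha, b, hb, rfl⟩, ⟨c, hc, d, hd, rfl⟩⟩, hne⟩, rfl⟩
    exact ⟨a, ha, b, hb, c, hc, d, hd, sub_ne_zero.mp hne, rfl⟩
  · rintro ⟨a, ha, b, hb, c, hc, d, hd, hne, rfl⟩
    exact ⟨a - b, c - d, ⟨⟨⟨a, ha, b, hb, rfl⟩, ⟨c, hc, d, hd, rfl⟩⟩, sub_ne_zero.mpr hne⟩, rfl⟩

variable {X : Finset F} {M T : ℝ}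

lemma lvl_sub (hX : X.Nonempty) (hM : ((X + X).card : ℝ) ≤ M * X.card) {K K' : ℝ} {a b : F}
    (ha : Lvl X K a) (hb : Lvl X K' b) : Lvl X (M ^ 6 * K * K') (a - b) := by
  have hc := lvl_add hX hM ha (lvl_neg hX hM hb)
  rw [← sub_eq_add_neg] at hc
  convert hc using 1
  ring

lemma lvl_Q (hX : X.Nonempty) (hM : ((X + X).card : ℝ) ≤ M * X.card) {Y : Finset F}
    (hY : ∀ y ∈ Y, Lvl X T y) {ξ : F} (hξ : ξ ∈ Qset Y) : Lvl X (M ^ 12 * T ^ 4) ξ := by
  obtain ⟨a, ha, b, hb, c, hc, d, hd, -, rfl⟩ := mem_Qset.mp hξ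
  have h1 := lvl_sub hX hM (hY a ha) (hY b hb)
  have h2 := lvl_sub hX hM (hY c hc) (hY d hd)
  have h3 := lvl_mul hX h1 (lvl_inv h2)
  rw [← div_eq_mul_inv] at h3
  convert h3 using 1
  ring

lemma zero_mem_Qset {Y : Finset F} {c d : F} (hc : c ∈ Y) (hd : d ∈ Y) (hne : c ≠ d) :
    (0 : F) ∈ Qset Y :=
  mem_Qset.mpr ⟨c, hc, c, hc, c, hc, d, hd, hne, by simp⟩

lemma one_mem_Qset {Y : Finset F} {c d : F} (hc : c ∈ Y) (hd : d ∈ Y) (hne : c ≠ d) :
    (1 : F) ∈ Qset Y :=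
  mem_Qset.mpr ⟨c, hc, d, hd, c, hc, d, hd, hne, (div_self (sub_ne_zero.mpr hne)).symm⟩

lemma neg_mem_Qset {Y : Finset F} {ξ : F} (h : ξ ∈ Qset Y) : -ξ ∈ Qset Y := by
  obtain ⟨a, ha, b, hb, c, hc, d, hd, hne, rfl⟩ := mem_Qset.mp h
  exact mem_Qset.mpr ⟨b, hb, a, ha, c, hc, d, hd, hne, by ring⟩

lemma inv_mem_Qset {Y : Finset F} {ξ : F} (h : ξ ∈ Qset Y) : ξ⁻¹ ∈ Qset Y := by
  obtain ⟨a, ha, b, hb, c, hc, d, hd, hne, rfl⟩ := mem_Qset.mp h
  by_cases hab : a = b
  · subst hab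
    simpa using zero_mem_Qset hc hd hne
  · exact mem_Qset.mpr ⟨c, hc, d, hd, a, ha, b, hb, hab, by
      rw [inv_div]⟩

/-- If `Qset Y` is closed under sum and product, it is a subfield. -/
def QSubfield (Y : Finset F) {c d : F} (hc : c ∈ Y) (hd : d ∈ Y) (hne : c ≠ d)
    (hadd : ∀ ξ ∈ Qset Y, ∀ t ∈ Qset Y, ξ + t ∈ Qset Y)
    (hmul : ∀ ξ ∈ Qset Y, ∀ t ∈ Qset Y, ξ * t ∈ Qset Y) : Subfield F where
  carrier := ↑(Qset Y)
  mul_mem' := fun ha hb => mem_coe.mpr (hmul _ (mem_coe.mp ha) _ (mem_coe.mp hb))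
  one_mem' := mem_coe.mpr (one_mem_Qset hc hd hne)
  add_mem' := fun ha hb => mem_coe.mpr (hadd _ (mem_coe.mp ha) _ (mem_coe.mp hb))
  zero_mem' := mem_coe.mpr (zero_mem_Qset hc hd hne)
  neg_mem' := fun ha => mem_coe.mpr (neg_mem_Qset (mem_coe.mp ha))
  inv_mem' := fun _ ha => mem_coe.mpr (inv_mem_Qset (mem_coe.mp ha))

lemma card_le_card_Qset {Y : Finset F} {c d : F} (hc : c ∈ Y) (hd : d ∈ Y) (hne : c ≠ d) :
    Y.card ≤ (Qset Y).card := by
  have hne' : c - d ≠ 0 := sub_ne_zero.mpr hne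
  refine card_le_card_of_injOn (fun y => (y - d) / (c - d)) ?_ ?_
  · intro y hy
    exact mem_Qset.mpr ⟨y, hy, d, hd, c, hc, d, hd, hne, rfl⟩
  · intro y _ y' _ h
    have h' : (y - d) / (c - d) = (y' - d) / (c - d) := h
    have := (div_left_inj' hne').mp h'
    exact sub_left_injective this

/-- Pigeonhole: if `|U|² > q` every element of the field is a quotient of differences of `U`. -/
lemma mem_Qset_of_large [Fintype F] {U : Finset F} (hU : Fintype.card F < U.card * U.card) (ξ : F) :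
    ξ ∈ Qset U := by
  have hcard : (univ : Finset F).card < (U ×ˢ U).card := by
    rw [card_product, card_univ]; exact hU
  obtain ⟨p, hp, p', hp', hne, heq⟩ := exists_ne_map_eq_of_card_lt_of_maps_to hcard
    (f := fun p : F × F => p.1 + ξ * p.2) (fun _ _ => mem_univ _)
  obtain ⟨hp1, hp2⟩ := mem_product.mp hp
  obtain ⟨hp1', hp2'⟩ := mem_product.mp hp'
  have heq' : p.1 + ξ * p.2 = p'.1 + ξ * p'.2 := heq
  by_cases h2 : p.2 = p'.2
  · have h1 : p.1 = p'.1 := by rw [h2] at heq'; exact add_right_cancel heq'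
    exact absurd (Prod.ext h1 h2) hne
  · refine mem_Qset.mpr ⟨p'.1, hp1', p.1, hp1, p.2, hp2, p'.2, hp2', h2, ?_⟩
    have hs : p.2 - p'.2 ≠ 0 := sub_ne_zero.mpr h2
    field_simp
    linear_combination heq'

/-- The `Q`-trick: either all `ξ` are at a bounded level, or there is a proper subfield containing
a copy of `Y`. -/
theorem levels_or_subfield [Fintype F] (hX : X.Nonempty) (hM : ((X + X).card : ℝ) ≤ M * X.card)
    {Y : Finset F} (hY : ∀ y ∈ Y, Lvl X T y) (hcard : 2 ≤ Y.card)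
    (hq : Fintype.card F < Y.card ^ 4) :
    (∀ ξ, Lvl X (M ^ 148 * T ^ 40) ξ) ∨ ∃ S : Subfield F, S ≠ ⊤ ∧ Y.card ≤ Nat.card S := by
  have hM1 := one_le_M hX hM
  obtain ⟨c, hc, d, hd, hne⟩ := one_lt_card.mp (by omega : 1 < Y.card)
  have hT1 : 1 ≤ T := (hY c hc).one_le hX
  by_cases hall : ∀ ξ, ξ ∈ Qset Y
  · left
    intro ξ
    refine (lvl_Q hX hM hY (hall ξ)).mono ?_
    have h1 : M ^ 12 ≤ M ^ 148 := pow_le_pow_right₀ hM1 (by norm_num)
    have h2 : T ^ 4 ≤ T ^ 40 := pow_le_pow_right₀ hT1 (by norm_num)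
    gcongr
  by_cases hclosed : (∀ ξ ∈ Qset Y, ∀ t ∈ Qset Y, ξ + t ∈ Qset Y) ∧
      (∀ ξ ∈ Qset Y, ∀ t ∈ Qset Y, ξ * t ∈ Qset Y)
  · right
    refine ⟨QSubfield Y hc hd hne hclosed.1 hclosed.2, ?_, ?_⟩
    · intro htop
      apply hall
      intro ξ
      have : ξ ∈ QSubfield Y hc hd hne hclosed.1 hclosed.2 := by rw [htop]; trivial
      exact mem_coe.mp this
    · have : Nat.card (QSubfield Y hc hd hne hclosed.1 hclosed.2) = (Qset Y).card := by
        have h2 : Nat.card (↥((Qset Y : Finset F) : Set F)) = (Qset Y).card :=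
          (Nat.card_coe_set_eq _).trans (Set.ncard_coe_finset _)
        exact h2
      rw [this]
      exact card_le_card_Qset hc hd hne
  · left
    -- extract `ω`
    have hω : ∃ ω, ω ∉ Qset Y ∧ Lvl X (M ^ 29 * T ^ 8) ω := by
      have hK1 : (1:ℝ) ≤ M ^ 12 * T ^ 4 := by
        have := one_le_pow₀ hM1 (n := 12)
        have := one_le_pow₀ hT1 (n := 4)
        nlinarith
      rw [not_and_or] at hclosed
      rcases hclosed with h | h
      · push Not at h
        obtain ⟨ξ, hξ, t, ht, hn⟩ := h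
        refine ⟨ξ + t, hn, ?_⟩
        have := lvl_add hX hM (lvl_Q hX hM hY hξ) (lvl_Q hX hM hY ht)
        convert this using 1
        ring
      · push Not at h
        obtain ⟨ξ, hξ, t, ht, hn⟩ := h
        refine ⟨ξ * t, hn, ?_⟩
        have := lvl_mul hX (lvl_Q hX hM hY hξ) (lvl_Q hX hM hY ht)
        refine this.mono ?_
        have h5 : 1 ≤ M ^ 5 := one_le_pow₀ hM1
        have e : M ^ 29 * T ^ 8 = M ^ 5 * ((M ^ 12 * T ^ 4) * (M ^ 12 * T ^ 4)) := by ring
        rw [e]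
        nlinarith [mul_nonneg (by linarith : (0:ℝ) ≤ M ^ 12 * T ^ 4)
          (by linarith : (0:ℝ) ≤ M ^ 12 * T ^ 4)]
    obtain ⟨ω, hω1, hω2⟩ := hω
    set U := Y + dil ω Y with hUdef
    have hinj : Set.InjOn (fun p : F × F => p.1 + ω * p.2) (↑(Y ×ˢ Y)) := by
      intro p hp p' hp' heq
      obtain ⟨hp1, hp2⟩ := mem_product.mp (mem_coe.mp hp)
      obtain ⟨hp1', hp2'⟩ := mem_product.mp (mem_coe.mp hp')
      have heq' : p.1 + ω * p.2 = p'.1 + ω * p'.2 := heq
      by_cases h2 : p.2 = p'.2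
      · have h1 : p.1 = p'.1 := by rw [h2] at heq'; exact add_right_cancel heq'
        exact Prod.ext h1 h2
      · exfalso
        apply hω1
        refine mem_Qset.mpr ⟨p'.1, hp1', p.1, hp1, p.2, hp2, p'.2, hp2', h2, ?_⟩
        have hs : p.2 - p'.2 ≠ 0 := sub_ne_zero.mpr h2
        field_simp
        linear_combination heq'
    have himg : (Y ×ˢ Y).image (fun p : F × F => p.1 + ω * p.2) ⊆ U := by
      intro z hz
      obtain ⟨p, hp, rfl⟩ := mem_image.mp hz
      obtain ⟨hp1, hp2⟩ := mem_product.mp hp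
      exact mem_add.mpr ⟨p.1, hp1, ω * p.2, mem_dil.mpr ⟨p.2, hp2, rfl⟩, rfl⟩
    have hUcard : Y.card * Y.card ≤ U.card := by
      have := card_le_card himg
      rwa [card_image_of_injOn hinj, card_product] at this
    have hUlarge : Fintype.card F < U.card * U.card := by
      calc Fintype.card F < Y.card ^ 4 := hq
        _ = (Y.card * Y.card) * (Y.card * Y.card) := by ring
        _ ≤ U.card * U.card := Nat.mul_le_mul hUcard hUcard
    have hUlvl : ∀ u ∈ U, Lvl X (M ^ 34 * T ^ 10) u := by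
      intro u hu
      obtain ⟨y1, hy1, w, hw, rfl⟩ := mem_add.mp hu
      obtain ⟨y2, hy2, rfl⟩ := mem_dil.mp hw
      have h1 := lvl_mul hX hω2 (hY y2 hy2)
      have h2 := lvl_add hX hM (hY y1 hy1) h1
      convert h2 using 1
      ring
    intro ξ
    have := lvl_Q hX hM hUlvl (mem_Qset_of_large hUlarge ξ)
    convert this using 1
    ring

end Qset

section averaging

/-- Cauchy-Schwarz for fibres. -/
lemma card_sq_le_card_mul_pairs {α β : Type*} [DecidableEq α] [DecidableEq β] (A : Finset α)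
    (f : α → β) :
    (A.card : ℝ) ^ 2 ≤ (A.image f).card * ((A ×ˢ A).filter (fun p => f p.1 = f p.2)).card := by
  have h1 : A.card = ∑ b ∈ A.image f, (A.filter (fun a => f a = b)).card :=
    card_eq_sum_card_fiberwise (fun a ha => mem_coe.mpr (mem_image_of_mem f (mem_coe.mp ha)))
  have h2 : ((A ×ˢ A).filter (fun p => f p.1 = f p.2)).card
      = ∑ b ∈ A.image f, (A.filter (fun a => f a = b)).card ^ 2 := by
    rw [card_eq_sum_card_fiberwise (f := fun p : α × α => f p.1) (t := A.image f)]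
    · refine sum_congr rfl fun b _ => ?_
      rw [sq, ← card_product]
      congr 1
      ext p
      simp only [mem_filter, mem_product]
      constructor
      · rintro ⟨⟨⟨h1, h2⟩, h3⟩, h4⟩
        exact ⟨⟨h1, h4⟩, ⟨h2, by rw [← h3]; exact h4⟩⟩
      · rintro ⟨⟨h1, h3⟩, ⟨h2, h4⟩⟩
        exact ⟨⟨⟨h1, h2⟩, by rw [h3, h4]⟩, h3⟩
    · intro p hp
      have := (mem_filter.mp (mem_coe.mp hp)).1
      exact mem_coe.mpr (mem_image_of_mem f (mem_product.mp this).1)
  rw [h2, h1]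
  have := sq_sum_le_card_mul_sum_sq (s := A.image f)
    (f := fun b => ((A.filter (fun a => f a = b)).card : ℝ))
  push_cast
  exact this

variable [Fintype F]

/-- The quadruples with `x₁ + ξ x₂ = x₃ + ξ x₄`. -/
def energyTuples (X : Finset F) (ξ : F) : Finset ((F × F) × (F × F)) :=
  ((X ×ˢ X) ×ˢ (X ×ˢ X)).filter (fun p => p.1.1 + ξ * p.1.2 = p.2.1 + ξ * p.2.2)

lemma card_sq_le_sum_energy (X : Finset F) (ξ : F) :
    ((X.card : ℝ) * X.card) ^ 2 ≤ (X + dil ξ X).card * (energyTuples X ξ).card := by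
  have h := card_sq_le_card_mul_pairs (X ×ˢ X) (fun p : F × F => p.1 + ξ * p.2)
  have himg : ((X ×ˢ X).image (fun p : F × F => p.1 + ξ * p.2)) ⊆ X + dil ξ X := by
    intro z hz
    obtain ⟨p, hp, rfl⟩ := mem_image.mp hz
    obtain ⟨hp1, hp2⟩ := mem_product.mp hp
    exact mem_add.mpr ⟨p.1, hp1, ξ * p.2, mem_dil.mpr ⟨p.2, hp2, rfl⟩, rfl⟩
  have h3 : (((X ×ˢ X).image (fun p : F × F => p.1 + ξ * p.2)).card : ℝ) ≤ (X + dil ξ X).card := by
    exact_mod_cast card_le_card himg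
  rw [card_product] at h
  push_cast at h
  calc _ ≤ _ := h
    _ ≤ _ := by
      unfold energyTuples
      gcongr

lemma sum_energy_le (X : Finset F) :
    ∑ ξ : F, ((energyTuples X ξ).card : ℝ)
      ≤ (X.card : ℝ) ^ 4 + Fintype.card F * (X.card : ℝ) ^ 2 := by
  classical
  have h1 : ∀ ξ : F, ((energyTuples X ξ).card : ℝ)
      = ∑ p ∈ (X ×ˢ X) ×ˢ (X ×ˢ X), if p.1.1 + ξ * p.1.2 = p.2.1 + ξ * p.2.2 then (1:ℝ) else 0 := by
    intro ξ
    unfold energyTuples
    rw [card_filter]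
    push_cast
    rfl
  simp_rw [h1]
  rw [sum_comm]
  -- number of good `ξ` for a fixed quadruple
  have h2 : ∀ p ∈ (X ×ˢ X) ×ˢ (X ×ˢ X), ∑ ξ : F, (if p.1.1 + ξ * p.1.2 = p.2.1 + ξ * p.2.2 then (1:ℝ) else 0)
      ≤ 1 + (if p.1.2 = p.2.2 ∧ p.1.1 = p.2.1 then (Fintype.card F : ℝ) else 0) := by
    intro p _
    by_cases h : p.1.2 = p.2.2
    · by_cases h' : p.1.1 = p.2.1
      · simp [h, h']
      · have : ∀ ξ : F, ¬ (p.1.1 + ξ * p.1.2 = p.2.1 + ξ * p.2.2) := by
          intro ξ he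
          rw [h] at he
          exact h' (add_right_cancel he)
        simp [this, h']
    · rw [if_neg (by tauto)]
      rw [add_zero]
      have hcard : (univ.filter (fun ξ : F => p.1.1 + ξ * p.1.2 = p.2.1 + ξ * p.2.2)).card ≤ 1 := by
        refine card_le_one.mpr ?_
        intro a ha b hb
        have ha' := (mem_filter.mp ha).2
        have hb' := (mem_filter.mp hb).2
        have hs : p.1.2 - p.2.2 ≠ 0 := sub_ne_zero.mpr h
        have : (a - b) * (p.1.2 - p.2.2) = 0 := by linear_combination ha' - hb'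
        exact sub_eq_zero.mp ((mul_eq_zero.mp this).resolve_right hs)
      have : ∑ ξ : F, (if p.1.1 + ξ * p.1.2 = p.2.1 + ξ * p.2.2 then (1:ℝ) else 0)
          = (univ.filter (fun ξ : F => p.1.1 + ξ * p.1.2 = p.2.1 + ξ * p.2.2)).card := by
        rw [card_filter]; push_cast; rfl
      rw [this]
      exact_mod_cast hcard
  refine (sum_le_sum h2).trans ?_
  rw [sum_add_distrib]
  simp only [sum_const, card_product, nsmul_eq_mul, mul_one]
  have h3 : ∑ p ∈ (X ×ˢ X) ×ˢ (X ×ˢ X),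
      (if p.1.2 = p.2.2 ∧ p.1.1 = p.2.1 then (Fintype.card F : ℝ) else 0)
      = (((X ×ˢ X) ×ˢ (X ×ˢ X)).filter (fun p => p.1.2 = p.2.2 ∧ p.1.1 = p.2.1)).card
        * (Fintype.card F : ℝ) := by
    rw [← sum_filter, sum_const, nsmul_eq_mul]
  rw [h3]
  have h4 : (((X ×ˢ X) ×ˢ (X ×ˢ X)).filter (fun p => p.1.2 = p.2.2 ∧ p.1.1 = p.2.1)).card
      ≤ (X ×ˢ X).card := by
    refine card_le_card_of_injOn (fun p => p.1) ?_ ?_
    · intro p hp
      exact (mem_product.mp (mem_filter.mp (mem_coe.mp hp)).1).1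
    · intro p hp p' hp' h
      obtain ⟨h1, h2⟩ := (mem_filter.mp (mem_coe.mp hp)).2
      obtain ⟨h1', h2'⟩ := (mem_filter.mp (mem_coe.mp hp')).2
      have e : p.1 = p'.1 := h
      refine Prod.ext e (Prod.ext ?_ ?_)
      · rw [← h2, ← h2', e]
      · rw [← h1, ← h1', e]
  have h5 : ((((X ×ˢ X) ×ˢ (X ×ˢ X)).filter (fun p => p.1.2 = p.2.2 ∧ p.1.1 = p.2.1)).card : ℝ)
      ≤ (X.card : ℝ) ^ 2 := by
    have : (((X ×ˢ X) ×ˢ (X ×ˢ X)).filter (fun p => p.1.2 = p.2.2 ∧ p.1.1 = p.2.1)).card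
        ≤ X.card * X.card := by rwa [card_product] at h4
    rw [sq]
    exact_mod_cast this
  have hq : (0 : ℝ) ≤ Fintype.card F := by positivity
  push_cast
  nlinarith [mul_le_mul_of_nonneg_right h5 hq]

/-- If all `ξ` have level `K`, then `min(|X|², q) ≤ 2K|X|`. -/
theorem averaging {X : Finset F} (hX : X.Nonempty) {K : ℝ} (hK : ∀ ξ, Lvl X K ξ) :
    min ((X.card : ℝ) ^ 2) (Fintype.card F) ≤ 2 * K * X.card := by
  have hq : (0 : ℝ) < Fintype.card F := by exact_mod_cast Fintype.card_pos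
  have hpos : (0 : ℝ) < X.card := by exact_mod_cast hX.card_pos
  have hK1 : 1 ≤ K := (hK 0).one_le hX
  -- pick the `ξ` with smallest energy
  obtain ⟨ξ, -, hξ⟩ := exists_min_image (univ : Finset F)
    (fun ξ => ((energyTuples X ξ).card : ℝ)) ⟨0, mem_univ _⟩
  have hsum : (Fintype.card F : ℝ) * (energyTuples X ξ).card
      ≤ (X.card : ℝ) ^ 4 + Fintype.card F * (X.card : ℝ) ^ 2 := by
    refine le_trans ?_ (sum_energy_le X)
    have := card_nsmul_le_sum univ (fun ξ => ((energyTuples X ξ).card : ℝ)) _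
      (fun x hx => hξ x hx)
    simpa [card_univ] using this
  have h1 := card_sq_le_sum_energy X ξ
  have h2 := hK ξ
  unfold Lvl at h2
  have hE : (0 : ℝ) ≤ (energyTuples X ξ).card := by positivity
  have h3 : ((X.card : ℝ) * X.card) ^ 2 ≤ (K * X.card) * (energyTuples X ξ).card :=
    h1.trans (by gcongr)
  -- multiply by `q`
  have h4 : (Fintype.card F : ℝ) * ((X.card : ℝ) * X.card) ^ 2
      ≤ (K * X.card) * ((X.card : ℝ) ^ 4 + Fintype.card F * (X.card : ℝ) ^ 2) := by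
    calc _ ≤ (Fintype.card F : ℝ) * ((K * X.card) * (energyTuples X ξ).card) := by gcongr
      _ = (K * X.card) * ((Fintype.card F : ℝ) * (energyTuples X ξ).card) := by ring
      _ ≤ _ := by gcongr
  -- divide by `|X|³`
  have h5 : (Fintype.card F : ℝ) * X.card ≤ K * ((X.card : ℝ) ^ 2 + Fintype.card F) := by
    have hp3 : (0 : ℝ) < (X.card : ℝ) ^ 3 := by positivity
    refine le_of_mul_le_mul_right ?_ hp3
    nlinarith [h4]
  by_cases hcase : (X.card : ℝ) ^ 2 ≤ Fintype.card F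
  · rw [min_eq_left hcase]
    have : (Fintype.card F : ℝ) * X.card ≤ K * (2 * Fintype.card F) := by
      refine h5.trans ?_
      gcongr
      linarith
    have h6 : (X.card : ℝ) ≤ 2 * K := by
      refine le_of_mul_le_mul_left ?_ hq
      nlinarith
    nlinarith
  · push Not at hcase
    rw [min_eq_right hcase.le]
    have : (Fintype.card F : ℝ) * X.card ≤ K * (2 * (X.card : ℝ) ^ 2) := by
      refine h5.trans ?_
      gcongr
      linarith
    have h6 : (Fintype.card F : ℝ) ≤ 2 * K * X.card := by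
      refine le_of_mul_le_mul_right ?_ hpos
      nlinarith
    exact h6

end averaging

section main

/-- Counting the ratios: `∑_{r ∈ X/X} |X ∩ r X| = |X|²`. -/
lemma sum_inter_eq {X : Finset F} (h0 : (0 : F) ∉ X) :
    ∑ r ∈ X / X, (X ∩ dil r X).card = X.card * X.card := by
  rw [← card_product]
  rw [card_eq_sum_card_fiberwise (f := fun p : F × F => p.1 / p.2) (t := X / X)]
  · refine sum_congr rfl fun r hr => ?_
    obtain ⟨a, ha, b, hb, rfl⟩ := mem_div.mp hr
    have hane : a ≠ 0 := fun h => h0 (h ▸ ha)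
    have hbne : b ≠ 0 := fun h => h0 (h ▸ hb)
    have hr0 : a / b ≠ 0 := div_ne_zero hane hbne
    symm
    refine card_bij (fun p _ => p.1) ?_ ?_ ?_
    · intro p hp
      obtain ⟨hp1, hp2⟩ := mem_filter.mp hp
      obtain ⟨hx, hy⟩ := mem_product.mp hp1
      have hyne : p.2 ≠ 0 := fun h => h0 (h ▸ hy)
      refine mem_inter.mpr ⟨hx, mem_dil.mpr ⟨p.2, hy, ?_⟩⟩
      rw [← hp2]
      field_simp
    · intro p hp p' hp' he
      obtain ⟨hp1, hp2⟩ := mem_filter.mp hp
      obtain ⟨hp1', hp2'⟩ := mem_filter.mp hp'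
      obtain ⟨hx, hy⟩ := mem_product.mp hp1
      obtain ⟨hx', hy'⟩ := mem_product.mp hp1'
      have hyne : p.2 ≠ 0 := fun h => h0 (h ▸ hy)
      have hyne' : p'.2 ≠ 0 := fun h => h0 (h ▸ hy')
      have hxne : p.1 ≠ 0 := fun h => h0 (h ▸ hx)
      refine Prod.ext he ?_
      have h3 : p.1 / p.2 = p'.1 / p'.2 := hp2.trans hp2'.symm
      rw [he] at h3
      have hxne' : p'.1 ≠ 0 := he ▸ hxne
      field_simp at h3
      exact h3.symm
    · intro z hz
      obtain ⟨hz1, hz2⟩ := mem_inter.mp hz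
      obtain ⟨y, hy, rfl⟩ := mem_dil.mp hz2
      have hyne : y ≠ 0 := fun h => h0 (h ▸ hy)
      refine ⟨(a / b * y, y), mem_filter.mpr ⟨mem_product.mpr ⟨hz1, hy⟩, ?_⟩, rfl⟩
      field_simp
  · intro p hp
    obtain ⟨hx, hy⟩ := mem_product.mp (mem_coe.mp hp)
    exact mem_coe.mpr (mem_div.mpr ⟨p.1, hx, p.2, hy, rfl⟩)

variable [Fintype F]

/-- **Sum-product lemma.**  A set with small sum and small ratio set in a field is
either close to a subfield, or `min(|X|², q) ≤ 2^41 M^268 |X|`. -/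
theorem sp_main {X : Finset F} (h0 : (0 : F) ∉ X) {M : ℝ}
    (hsum : ((X + X).card : ℝ) ≤ M * X.card) (hdiv : ((X / X).card : ℝ) ≤ M * X.card)
    (h4 : 4 ≤ X.card) (hq : (Fintype.card F : ℝ) < ((X.card : ℝ) / 2) ^ 4) :
    min ((X.card : ℝ) ^ 2) (Fintype.card F) ≤ 2 ^ 41 * M ^ 268 * X.card ∨
      ∃ S : Subfield F, S ≠ ⊤ ∧ (X.card : ℝ) / 2 ≤ Nat.card S := by
  have hX : X.Nonempty := card_pos.mp (by omega)
  have hM1 := one_le_M hX hsum
  have hMpos : (0 : ℝ) < M := by linarith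
  have hpos : (0 : ℝ) < X.card := by exact_mod_cast hX.card_pos
  set R := X / X with hR
  set Y := R.filter (fun r => (X.card : ℝ) / (2 * M) ≤ (X ∩ dil r X).card) with hYdef
  -- lower bound on `Y`
  have hYcard : (X.card : ℝ) / 2 ≤ Y.card := by
    have hs : ((X.card * X.card : ℕ) : ℝ) = ∑ r ∈ R, ((X ∩ dil r X).card : ℝ) := by
      rw [← sum_inter_eq h0]; push_cast; rfl
    have hsplit := sum_filter_add_sum_filter_not R
      (fun r => (X.card : ℝ) / (2 * M) ≤ (X ∩ dil r X).card)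
      (fun r => ((X ∩ dil r X).card : ℝ))
    have h1 : ∑ r ∈ Y, ((X ∩ dil r X).card : ℝ) ≤ Y.card * X.card := by
      have : ∀ r ∈ Y, ((X ∩ dil r X).card : ℝ) ≤ X.card := fun r _ => by
        exact_mod_cast card_le_card inter_subset_left
      simpa using sum_le_sum this
    have h2 : ∑ r ∈ R.filter (fun r => ¬ (X.card : ℝ) / (2 * M) ≤ (X ∩ dil r X).card),
        ((X ∩ dil r X).card : ℝ) ≤ R.card * ((X.card : ℝ) / (2 * M)) := by
      have : ∀ r ∈ R.filter (fun r => ¬ (X.card : ℝ) / (2 * M) ≤ (X ∩ dil r X).card),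
          ((X ∩ dil r X).card : ℝ) ≤ (X.card : ℝ) / (2 * M) := fun r hr =>
        (not_le.mp (mem_filter.mp hr).2).le
      calc _ ≤ ∑ _r ∈ R.filter (fun r => ¬ (X.card : ℝ) / (2 * M) ≤ (X ∩ dil r X).card),
            (X.card : ℝ) / (2 * M) := sum_le_sum this
        _ = ((R.filter (fun r => ¬ (X.card : ℝ) / (2 * M) ≤ (X ∩ dil r X).card)).card : ℝ)
            * ((X.card : ℝ) / (2 * M)) := by simp
        _ ≤ _ := by
          gcongr
          exact filter_subset _ _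
    have h3 : (R.card : ℝ) * ((X.card : ℝ) / (2 * M)) ≤ (X.card : ℝ) * X.card / 2 := by
      calc _ ≤ (M * X.card) * ((X.card : ℝ) / (2 * M)) := by gcongr
        _ = _ := by field_simp
    push_cast at hs
    have h5 : (X.card : ℝ) * X.card ≤ Y.card * X.card + (X.card : ℝ) * X.card / 2 := by
      rw [hs]
      rw [← hsplit]
      have := h1
      have := h2
      linarith
    have h6 : ((X.card : ℝ) / 2) * X.card ≤ Y.card * X.card := by nlinarith
    exact le_of_mul_le_mul_right h6 hpos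
  have hYlvl : ∀ y ∈ Y, Lvl X (2 * M ^ 3) y := by
    intro y hy
    obtain ⟨hy1, hy2⟩ := mem_filter.mp hy
    obtain ⟨a, ha, b, hb, rfl⟩ := mem_div.mp hy1
    have hane : a ≠ 0 := fun h => h0 (h ▸ ha)
    have hbne : b ≠ 0 := fun h => h0 (h ▸ hb)
    exact lvl_of_inter hX hsum (div_ne_zero hane hbne) hy2
  have hY2 : 2 ≤ Y.card := by
    have : (2 : ℝ) ≤ Y.card := by
      have h41 : (4 : ℝ) ≤ X.card := by exact_mod_cast h4
      linarith
    exact_mod_cast this
  have hY4 : Fintype.card F < Y.card ^ 4 := by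
    have : (Fintype.card F : ℝ) < (Y.card : ℝ) ^ 4 := by
      refine hq.trans_le ?_
      gcongr
    exact_mod_cast this
  rcases levels_or_subfield hX hsum hYlvl hY2 hY4 with hall | ⟨S, hS, hScard⟩
  · left
    have := averaging hX hall
    calc _ ≤ _ := this
      _ = _ := by ring
  · right
    refine ⟨S, hS, hYcard.trans ?_⟩
    exact_mod_cast hScard

end main

end Crest.Agent.Lib.NearBaer
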